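import Vale.Agent.P240.R2.AS.Stmts
import Vale.Agent.P240.R2.H727.RankM

/-!
The centre of the unitary group consists of scalars (any star), and the rank bound for `PGU_n(q)`.
-/

set_option autoImplicit false

namespace Vale.Agent.P240.R2.H296

open Matrix

section
variable {K ι : Type*} [Field K] [StarRing K] [Fintype ι] [DecidableEq ι]

/-- the diagonal matrix with entry `ζ` at `i` and `1` elsewhere -/
def dg (ζ : K) (h : ζ * star ζ = 1) (i : ι) : unitaryGroup ι K :=
  ⟨diagonal (Function.update 1 i ζ), by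
    rw [mem_unitaryGroup_iff, star_eq_conjTranspose, diagonal_conjTranspose, diagonal_mul_diagonal,
      ← diagonal_one]
    congr 1
    funext j
    by_cases hj : j = i
    · subst hj; simp [h]
    · simp [Function.update_of_ne hj]⟩

/-- permutation matrices are unitary -/
def pm (s : Equiv.Perm ι) : unitaryGroup ι K :=
  ⟨s.permMatrix K, by
    rw [mem_unitaryGroup_iff, star_eq_conjTranspose, conjTranspose_permMatrix, ← permMatrix_mul]
    simp⟩

theorem mem_center_iff {ζ : K} (h1 : ζ ≠ 1) (h2 : ζ * star ζ = 1) (g : unitaryGroup ι K) :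
    g ∈ Subgroup.center (unitaryGroup ι K) ↔ ∃ c : K, (g : Matrix ι ι K) = c • 1 := by
  constructor
  · intro hg
    rw [Subgroup.mem_center_iff] at hg
    have hod : ∀ j k, j ≠ k → (g : Matrix ι ι K) j k = 0 := by
      intro j k hjk
      have h := congrArg (fun x : unitaryGroup ι K => (x : Matrix ι ι K) j k) (hg (dg ζ h2 k))
      simp only [UnitaryGroup.mul_val, dg, diagonal_mul, mul_diagonal, Function.update_of_ne hjk,
        Pi.one_apply, one_mul, Function.update_self] at h
      have : (g : Matrix ι ι K) j k * (ζ - 1) = 0 := by rw [mul_sub, ← h]; ring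
      rcases mul_eq_zero.1 this with h | h
      · exact h
      · exact absurd (sub_eq_zero.1 h) h1
    rcases isEmpty_or_nonempty ι with he | ⟨⟨i⟩⟩
    · exact ⟨1, by ext j; exact (he.false j).elim⟩
    refine ⟨(g : Matrix ι ι K) i i, ?_⟩
    ext j k
    by_cases hjk : j = k
    · subst hjk
      have h := congrArg (fun x : unitaryGroup ι K => (x : Matrix ι ι K) i j) (hg (pm (Equiv.swap i j)))
      simp only [UnitaryGroup.mul_val, pm] at h
      rw [Matrix.smul_apply, one_apply_eq, smul_eq_mul, mul_one]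
      rw [PEquiv.toMatrix_toPEquiv_mul, PEquiv.mul_toMatrix_toPEquiv] at h
      simpa using h
    · rw [hod j k hjk, Matrix.smul_apply, one_apply_ne hjk, smul_zero]
  · rintro ⟨c, hc⟩
    rw [Subgroup.mem_center_iff]
    intro x
    apply Subtype.ext
    rw [UnitaryGroup.mul_val, UnitaryGroup.mul_val, hc]
    simp

/-- the rank bound for `U_n(K)` modulo its centre, any star with a unit `ζ ≠ 1`, `ζ ζ* = 1` -/
theorem rank_center {p : ℕ} [Fact p.Prime] (hp : (p : K) ≠ 0) {ζ : K} (h1 : ζ ≠ 1)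
    (h2 : ζ * star ζ = 1) (h4 : p = 2 → Fintype.card ι ≠ 2 ∧ Fintype.card ι ≠ 4)
    (E : Subgroup (unitaryGroup ι K ⧸ Subgroup.center (unitaryGroup ι K)))
    (hE : ∀ x ∈ E, ∀ y ∈ E, x * y = y * x) (hEp : ∀ x ∈ E, x ^ p = 1) :
    Nat.card E ≤ p ^ (Fintype.card ι - 1) := by
  refine H727.card_elem_le hp (QuotientGroup.mk' (Subgroup.center (unitaryGroup ι K)))
    (QuotientGroup.mk'_surjective _) (Unitary.toUnits (R := Matrix ι ι K)) (fun g => ?_) E hE hEp h4
  rw [← MonoidHom.mem_ker, QuotientGroup.ker_mk', mem_center_iff h1 h2]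
  rfl

end

/-- in a field with `q ^ 2` elements there are `p`-th roots of unity of norm one -/
theorem exists_zeta {K : Type*} [Field K] [Finite K] [StarRing K] {q : ℕ} (hK : Nat.card K = q ^ 2)
    (hs : ∀ x : K, star x = x ^ q) {p : ℕ} (hp : p.Prime) (hpq : p ∣ q + 1) :
    ∃ ζ : K, ζ ^ p = 1 ∧ ζ ≠ 1 ∧ ζ * star ζ = 1 := by
  have := Fact.mk hp
  have := Fintype.ofFinite K
  have : Fintype Kˣ := Fintype.ofFinite _
  have hq1 : 1 ≤ q := by
    rcases Nat.eq_zero_or_pos q with rfl | h
    · simp at hK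
    · exact h
  have hc : Nat.card Kˣ = (q + 1) * (q - 1) := by
    rw [Nat.card_units, hK, ← Nat.sq_sub_sq, one_pow]
  have hd : p ∣ Nat.card Kˣ := by rw [hc]; exact hpq.mul_right _
  obtain ⟨u, hu⟩ := exists_prime_orderOf_dvd_card' p hd
  have hup : (u : K) ^ p = 1 := by
    rw [← Units.val_pow_eq_pow_val, ← hu, pow_orderOf_eq_one, Units.val_one]
  refine ⟨u, hup, fun h => ?_, ?_⟩
  · rw [Units.val_eq_one.1 h, orderOf_one] at hu
    exact hp.one_lt.ne hu
  · obtain ⟨m, hm⟩ := hpq
    rw [hs, ← pow_succ', hm, pow_mul, hup, one_pow]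

/-- M4 -/
theorem stmtM4 : AS.StmtM4 := by
  intro K _ _ _ q hq hK hs p _ hpq n hn h2 E hE hEp
  obtain ⟨ζ, _, h1, h3⟩ := exists_zeta hK hs (Fact.out : p.Prime) hpq
  have hp : (p : K) ≠ 0 := by
    intro h0
    have h4 : ((Nat.card K : ℕ) : K) = 0 := by
      rw [Nat.card_eq_fintype_card]; exact Nat.cast_card_eq_zero K
    have h5 : (q : K) = 0 := by
      rw [hK] at h4; push_cast at h4; exact pow_eq_zero_iff (two_ne_zero) |>.1 h4
    obtain ⟨m, hm⟩ := hpq
    have h6 : ((q + 1 : ℕ) : K) = ((p * m : ℕ) : K) := by rw [hm]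
    push_cast at h6
    rw [h5, h0] at h6
    simp at h6
  have := rank_center (ι := Fin n) hp h1 h3 (fun hp2 => by
    rw [Fintype.card_fin]
    exact h2.resolve_left (not_not.2 hp2)) E hE hEp
  rwa [Fintype.card_fin] at this

end Vale.Agent.P240.R2.H296
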