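import Vale.Agent.P240.R2.AS.Stmts2

/-!
Exact statements for the prime `2` (helper296).
-/

set_option autoImplicit false

namespace Vale.Agent.P240.R2.AS

open Finset Matrix Vale.Agent.P240 Vale.Agent.P240.K
open Vale.Agent.P240.R2.H275 (QuillenDim)
open scoped Classical

universe u v

noncomputable section

/-- B1 (owners 387, 472, 281; together with M1): Theorem 1 for the symmetric form over a field with
`q ≥ 11` elements, `q` odd (trivial star; the letters are the lines of square value) -/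
def StmtB1 : Prop :=
  ∀ (K : Type u) [Field K] [Fintype K] [StarRing K], (∀ x : K, star x = x) → Odd (Nat.card K) →
    11 ≤ Nat.card K → ∀ n : ℕ, 2 ≤ n → (Fr K n).card < 3 * 2 ^ n * t (Fr K n)

/-- B2 (owner 620): the elements `e W` for the trivial star, `ζ = -1`; `n ≥ 3` or `n = 1` -/
def StmtB2 : Prop :=
  ∀ (K : Type u) [Field K] [Fintype K] [StarRing K], (∀ x : K, star x = x) → Odd (Nat.card K) →
    ∀ n : ℕ, 1 ≤ n → Comb 2 n (Fr K n) (eW (-1 : K))

/-- B3 (owner 221): the elements `e W` are products of commutators, `n` odd -/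
def StmtB3 : Prop :=
  ∀ (K : Type u) [Field K] [Fintype K] [StarRing K], (∀ x : K, star x = x) → Odd (Nat.card K) →
    ∀ n : ℕ, Odd n → ∀ w : List (Ln K n), Orth w → eW (-1 : K) w ∈ commutator (PGU K n)

/-- B4 (owner 620): `SO_n(q)`, `Ω_n(q)` and the groups between them, `n` odd (`PGU K n` is
`O_n(q) / {1, -1}`, isomorphic to `SO_n(q)`) -/
def StmtB4 : Prop :=
  ∀ (K : Type u) [Field K] [Fintype K] [StarRing K], (∀ x : K, star x = x) → Odd (Nat.card K) →
    11 ≤ Nat.card K → ∀ n : ℕ, Odd n → ∀ H : Subgroup (PGU K n), commutator (PGU K n) ≤ H →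
    ∀ (𝕜 : Type v) [Field 𝕜], QuillenDim 𝕜 2 H

/-- B5 (owner 613): all involutions in the coset of the field automorphism of order `2` are
conjugate, `n` odd -/
def StmtB5 : Prop :=
  ∀ (K : Type u) [Field K] [Fintype K] [StarRing K] (q : ℕ), Odd q → 3 ≤ q →
    Nat.card K = q ^ 2 → (∀ x : K, star x = x ^ q) → ∀ n : ℕ, Odd n →
    ∀ x : PGamU K n, x ^ 2 = 1 → x.right ≠ 1 → (∀ y : K, x.right.1 y = star y) ∧ ∃ h : PGU K n,
    x = SemidirectProduct.inl h * SemidirectProduct.inr x.right * (SemidirectProduct.inl h)⁻¹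

/-- B6 (owner 523): for `p ∤ n` all the elements `e W` lie in `PSU_n(q)` -/
def StmtB6 : Prop :=
  ∀ (K : Type u) [Field K] [Fintype K] [StarRing K] (p : ℕ) [Fact p.Prime] (ζ : K), ζ ^ p = 1 →
    ζ * star ζ = 1 → ∀ n : ℕ, ¬ p ∣ n → ∀ w : List (Ln K n), Orth w → eW ζ w ∈ PSU K n

/-- B7 (owners 164, 986, 945): chains of `n` groups in groups containing `PSU_n(q)` and the field
automorphism of order `2` -/
def StmtB7 : Prop :=
  ∀ (K : Type u) [Field K] [Fintype K] [StarRing K] (q : ℕ), Odd q → 11 ≤ q →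
    Nat.card K = q ^ 2 → (∀ x : K, star x = x ^ q) → ∀ n : ℕ, Odd n → 3 ≤ n → ¬ (n = 3 ∧ q = 11) →
    ∀ σ : SA K, (∀ y : K, σ.1 y = star y) →
    ∀ H : Subgroup (PGamU K n), PSU' K n ≤ H → SemidirectProduct.inr σ ∈ H →
    ∃ c : List (Ap 2 H) →₀ ℚ, IsChain n c ∧ bd c = 0 ∧ c ≠ 0

/-- B8, THE FINAL THEOREM for `p = 2` (owner 164): `n` odd, `q ≥ 11` odd: all groups `PSU_n(q) E`, `E`
an elementary abelian `2`-subgroup of `PΓU_n(q)` -/
def StmtB8 : Prop :=
  ∀ (K : Type u) [Field K] [Fintype K] [StarRing K] (q : ℕ), Odd q → 11 ≤ q →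
    Nat.card K = q ^ 2 → (∀ x : K, star x = x ^ q) → ∀ n : ℕ, Odd n → 3 ≤ n → ¬ (n = 3 ∧ q = 11) →
    ∀ E : Subgroup (PGamU K n), (∀ x ∈ E, ∀ y ∈ E, x * y = y * x) → (∀ x ∈ E, x ^ 2 = 1) →
    ∀ (𝕜 : Type v) [Field 𝕜], QuillenDim 𝕜 2 ↥(PSU' K n ⊔ E)

end

end Vale.Agent.P240.R2.AS
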