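import Vale.Agent.P240.R2.H296.EC2
import Vale.Agent.P240.R2.H275.EF
import Vale.Agent.P240.R2.H281.EC3

/-!
`StmtEC`.
-/

set_option autoImplicit false
set_option linter.all false

namespace Vale.Agent.P240.R2.H296.EC

open Matrix Vale.Agent.P240.R2.AS Vale.Agent.P240.R2.H38 Vale.Agent.P240.K
open Vale.Agent.P240.R2.H938 (TD TC mem_TD)
open Vale.Agent.P240.R2.H296.O (SOm)
open Vale.Agent.P240.R2.H401.E
open scoped Classical

universe u v w

noncomputable section

/-- (EC) -/
theorem stmtEC : StmtEC.{u, v} := by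
  intro K _ _ _ m hK G _ _ L ε hε
  have h2 : (2 : K) ≠ 0 := H221.two_ne hK.odd
  have h6 : 5 < Fintype.card K := by
    have := hK.card
    rw [Nat.card_eq_fintype_card] at this
    omega
  have hm := hK.hm
  have hev : Even (m + 1) := by
    obtain ⟨k, hk⟩ := hK.modd
    exact ⟨k + 1, by omega⟩
  refine ⟨fun u => ⟨EHom_comp hε u, Ae_comp ε u, Qe_comp ε u⟩,
    fun u => ⟨Ae_le hε.range u, Ae_ApS hK.st h2 hK.modd (by omega) hε.ker u,
      card_Ae hK.st h2 hK.modd hε.ker u⟩, le_Qe hε.range, Qe_norm hε.range,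
    infO hK.st h2 h6 (by omega) hε.range hε.ker,
    fun l hl _ hc => hC_O hK.st h2 hev (by omega) hε hl hc,
    fun e he x hx _ _ _ hec hxc heL => hF1_O hK.st h2 hev (by omega) hε he hx hec hxc heL,
    H281EC.ec_hF2 hK hε, H281EC.ec_lit_e hK hε, H281EC.ec_lit_t hK hε⟩

end

end Vale.Agent.P240.R2.H296.EC
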