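import Vale.Agent.P240.R2.H296.OFam
import Vale.Agent.P240.R2.H401.E4
import Vale.Agent.P240.R2.H401.DDefs

/-!
`TopFac` at the prime `2` for `PΩ` of the forms of even dimension.
-/

set_option autoImplicit false

namespace Vale.Agent.P240.R2.OF

open Matrix Vale.Agent.P240.R2.AS
open Vale.Agent.P240.R2.H487 (TopFac)
open Vale.Agent.P240.R2.H145.EO (OD B ac)
open Vale.Agent.P240.R2.H401.D (fd POD StmtD DNum)

universe u v w

section OD
variable {F : Type*} [Field F] {n : ℕ}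

lemma B_eq (a x y : Fin n → F) : B a x y = x ⬝ᵥ (diagonal a *ᵥ y) := by
  unfold B
  rw [dotProduct]
  refine Finset.sum_congr rfl fun i _ => ?_
  rw [mulVec_diagonal]
  ring

lemma OD_eq (a : Fin n → F) : OD a = OA (diagonal a) := by
  ext g
  have h : ∀ x y, B a (ac g x) (ac g y) = x ⬝ᵥ (((g.1)ᵀ * diagonal a * g.1) *ᵥ y) := by
    intro x y
    rw [B_eq]
    unfold ac
    rw [← mulVec_mulVec, ← mulVec_mulVec, dotProduct_mulVec x (g.1)ᵀ, vecMul_transpose]
  constructor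
  · intro hg
    rw [mem_OA]
    ext i j
    have h1 := (h (Pi.single i 1) (Pi.single j 1)).symm.trans (hg (Pi.single i 1) (Pi.single j 1))
    rw [B_eq, mulVec_single_one, mulVec_single_one, single_one_dotProduct,
      single_one_dotProduct] at h1
    exact h1
  · intro hg x y
    rw [mem_OA] at hg
    rw [h, hg, B_eq]

lemma dl_fd (m : ℕ) (d : F) : dl m d = diagonal (fd m d) := rfl

/-- the group of 401 -/
noncomputable def pomFd (m : ℕ) (d : F) : POm (dl m d) ≃* ↥(commutator (POD (fd m d))) :=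
  commCongr (MulEquiv.subgroupCongr (OD_eq (fd m d)).symm)

end OD

section

attribute [local instance] starRingOfComm

lemma card_ge {F : Type} [Field F] [Finite F] (ho : Nat.card F % 2 = 1) (h3 : Nat.card F ≠ 3)
    (h5 : Nat.card F ≠ 5) : 7 ≤ Nat.card F := by
  have h1 : 1 < Nat.card F := Finite.one_lt_card
  by_contra hc
  have : Nat.card F = 2 ∨ Nat.card F = 3 ∨ Nat.card F = 4 ∨ Nat.card F = 5 ∨ Nat.card F = 6 := by
    omega
  omega

/-- **even dimension, square discriminant** -/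
theorem topFac_plus {F : Type} [Field F] [Finite F] {n : ℕ} (𝕜 : Type w) [Field 𝕜] (hn6 : 6 ≤ n)
    (hn : n % 2 = 0) (ho : Nat.card F % 2 = 1) (h3 : Nat.card F ≠ 3) (h5 : Nat.card F ≠ 5)
    (h9 : Nat.card F ≠ 9) (h25 : Nat.card F ≠ 25) {A : Matrix (Fin n) (Fin n) F} (hA : Aᵀ = A)
    (h0 : A.det ≠ 0) (hsq : IsSquare A.det) {L : Type v} [Group L] (e : L ≃* POm A) :
    TopFac 𝕜 2 L := by
  haveI := Fintype.ofFinite F
  obtain ⟨m, rfl⟩ : ∃ m, n = m + 1 := ⟨n - 1, by omega⟩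
  have h2 := two_ne' ho
  have hF : ringChar F ≠ 2 := by
    intro h
    apply h2
    have h3 := ringChar.Nat.cast_ringChar (R := F)
    rw [h] at h3
    exact_mod_cast h3
  obtain ⟨δ, hδ⟩ := FiniteField.exists_nonsquare hF
  rcases congr_all h2 hδ hA h0 with ⟨P, hP⟩ | ⟨P, hP⟩
  · obtain ⟨f⟩ := nonempty_POm (c := 1) one_ne_zero (hP.trans (one_smul F _).symm)
    exact H401.E.topFac_Even 𝕜 (fun x => rfl) (Nat.odd_iff.2 ho) (card_ge ho h3 h5) h9 h25
      (Nat.even_iff.2 hn) hn6 (e.trans (f.trans pomOne))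
  · exfalso
    apply hδ
    have h4 : δ = P.1.det * A.det * P.1.det := by
      rw [← dl_det (m := m) δ, ← hP, det_mul, det_mul, det_transpose]
    obtain ⟨s, hs⟩ := hsq
    exact ⟨P.1.det * s, by rw [h4, hs]; ring⟩

/-- **all forms**, given the groups of nonsquare discriminant -/
theorem topFac_of {F : Type} [Field F] [Finite F] {n : ℕ} (hD : StmtD.{0, v, w}) (𝕜 : Type w)
    [Field 𝕜] (hn5 : 5 ≤ n) (ho : Nat.card F % 2 = 1) (h3 : Nat.card F ≠ 3) (h5 : Nat.card F ≠ 5)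
    (h9 : Nat.card F ≠ 9) (h25 : Nat.card F ≠ 25) {A : Matrix (Fin n) (Fin n) F} (hA : Aᵀ = A)
    (h0 : A.det ≠ 0) {L : Type v} [Group L] (e : L ≃* POm A) : TopFac 𝕜 2 L := by
  haveI := Fintype.ofFinite F
  refine topFac_all 𝕜 hn5 ho h3 h5 h9 h25 hA h0 e ?_ ?_
  · rintro m rfl hm ⟨f⟩
    exact H401.E.topFac_Even 𝕜 (fun x => rfl) (Nat.odd_iff.2 ho) (card_ge ho h3 h5) h9 h25
      (Nat.even_iff.2 (by omega)) (by omega) f
  · rintro m δ rfl hm hδ ⟨f⟩ G _ _ M ⟨g⟩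
    exact hD F m δ ⟨Nat.odd_iff.2 ho, card_ge ho h3 h5, Nat.odd_iff.2 hm, by omega, hδ⟩ G M
      ⟨((pomFd m δ).symm.trans f.symm).trans g⟩ 𝕜

end

end Vale.Agent.P240.R2.OF
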