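import Vale.Agent.P240.R2.H296.EC1

/-!
The order of the group `Ae`.
-/

set_option autoImplicit false
set_option linter.all false

namespace Vale.Agent.P240.R2.H296.EC

open Matrix Vale.Agent.P240.R2.AS Vale.Agent.P240.R2.H38 Vale.Agent.P240.K
open Vale.Agent.P240.R2.H938 (TD TC mem_TD)
open Vale.Agent.P240.R2.H296.O (SOm)
open Vale.Agent.P240.R2.H401.E
open Vale.Agent.P240.R2.H275 (SOm_gmap SOm_conj uniqE diag_mem_iff det_SOm diag_of5 dij prod_dij gu_diag dGU)
open scoped Classical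

universe u v w

noncomputable section

section
variable {K : Type u} [Field K] [Fintype K] [StarRing K] {m : ℕ} {G : Type v} [Group G]

/-- a sign as an element of the field -/
def sg (z : ℤˣ) : K := ((z : ℤ) : K)

omit [Fintype K] [StarRing K] in
lemma sg_mul (y z : ℤˣ) : (sg (y * z) : K) = sg y * sg z := by
  simp [sg]

omit [Fintype K] [StarRing K] in
lemma sg_one : (sg 1 : K) = 1 := by simp [sg]

omit [Fintype K] [StarRing K] in
lemma sg_neg_one : (sg (-1) : K) = -1 := by simp [sg]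

omit [Fintype K] [StarRing K] in
lemma sg_sq (z : ℤˣ) : (sg z : K) * sg z = 1 := by
  rcases Int.units_eq_one_or z with rfl | rfl
  · rw [sg_one, one_mul]
  · rw [sg_neg_one]; ring

lemma sg_inj (h2 : (2 : K) ≠ 0) {y z : ℤˣ} (h : (sg y : K) = sg z) : y = z := by
  rcases Int.units_eq_one_or y with rfl | rfl <;> rcases Int.units_eq_one_or z with rfl | rfl
  · rfl
  · rw [sg_one, sg_neg_one] at h
    exact absurd h.symm (m1_ne h2)
  · rw [sg_one, sg_neg_one] at h
    exact absurd h (m1_ne h2)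
  · rfl

omit [Fintype K] [StarRing K] in
lemma sg_surj {a : K} (h : a ^ 2 = 1) : ∃ z : ℤˣ, (sg z : K) = a := by
  rw [pow_two] at h
  rcases mul_self_eq_one_iff.1 h with h | h
  · exact ⟨1, by rw [sg_one, h]⟩
  · exact ⟨-1, by rw [sg_neg_one, h]⟩

omit [Fintype K] [StarRing K] in
lemma sg_prod {ι : Type} (s : Finset ι) (f : ι → ℤˣ) : (sg (∏ i ∈ s, f i) : K) = ∏ i ∈ s, sg (f i) := by
  induction s using Finset.induction_on with
  | empty => rw [Finset.prod_empty, Finset.prod_empty, sg_one]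
  | insert a s ha ih => rw [Finset.prod_insert ha, Finset.prod_insert ha, sg_mul, ih]

variable (K) in
/-- the diagonal with given signs, of product one -/
def dsg (s : Fin m → ℤˣ) : Fin (m + 1) → K :=
  Fin.snoc (α := fun _ => K) (fun i => sg (s i)) (sg (∏ i, s i))

omit [Fintype K] [StarRing K] in
lemma dsg_castSucc (s : Fin m → ℤˣ) (i : Fin m) : dsg K s i.castSucc = sg (s i) := by
  rw [dsg, Fin.snoc_castSucc]

omit [Fintype K] [StarRing K] in
lemma dsg_last (s : Fin m → ℤˣ) : dsg K s (Fin.last m) = sg (∏ i, s i) := by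
  rw [dsg, Fin.snoc_last]

omit [Fintype K] [StarRing K] in
lemma dsg_sq (s : Fin m → ℤˣ) (i : Fin (m + 1)) : dsg K s i * dsg K s i = 1 := by
  refine Fin.lastCases ?_ (fun i => ?_) i
  · rw [dsg_last, sg_sq]
  · rw [dsg_castSucc, sg_sq]

omit [Fintype K] [StarRing K] in
lemma dsg_prod (s : Fin m → ℤˣ) : ∏ i, dsg K s i = 1 := by
  rw [Fin.prod_univ_castSucc, dsg_last, Finset.prod_congr rfl fun i _ => dsg_castSucc s i, ← sg_prod,
    sg_sq]

omit [Fintype K] [StarRing K] in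
lemma dsg_mul (s t : Fin m → ℤˣ) (i : Fin (m + 1)) : dsg K (s * t) i = dsg K s i * dsg K t i := by
  refine Fin.lastCases ?_ (fun i => ?_) i
  · rw [dsg_last, dsg_last, dsg_last, ← sg_mul]
    congr 1
    exact Finset.prod_mul_distrib
  · rw [dsg_castSucc, dsg_castSucc, dsg_castSucc, ← sg_mul]
    rfl

/-- the elements of `SOm` with given signs -/
def Dsg (hs : ∀ x : K, star x = x) (h2 : (2 : K) ≠ 0) (hm : Odd m) (s : Fin m → ℤˣ) :
    SOm K (m + 1) :=
  ⟨dGU (dsg K s) (fun i => by rw [hs]; exact dsg_sq s i),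
    (diag_mem_iff hs h2 (by
      obtain ⟨k, rfl⟩ := hm
      exact ⟨k + 1, by ring⟩) (d := dsg K s) rfl).2 (dsg_prod s)⟩

lemma mx_Dsg (hs : ∀ x : K, star x = x) (h2 : (2 : K) ≠ 0) (hm : Odd m) (s : Fin m → ℤˣ) :
    mx (Dsg hs h2 hm s) = diagonal (dsg K s) := rfl

/-- the homomorphism onto `Ae` -/
def hsg (hs : ∀ x : K, star x = x) (h2 : (2 : K) ≠ 0) (hm : Odd m) (ε : SOm K (m + 1) →* G)
    (u : GU K (m + 1)) : (Fin m → ℤˣ) →* G where
  toFun s := ε (cjO u (Dsg hs h2 hm s))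
  map_one' := by
    have h : Dsg hs h2 hm (1 : Fin m → ℤˣ) = 1 := by
      apply mx_inj
      rw [mx_Dsg, mx_one, ← diagonal_one]
      congr 1
      funext i
      refine Fin.lastCases ?_ (fun i => ?_) i
      · rw [dsg_last]
        simp [sg]
      · rw [dsg_castSucc]
        simp [sg]
    rw [h, map_one, map_one]
  map_mul' s t := by
    have h : Dsg hs h2 hm (s * t) = Dsg hs h2 hm s * Dsg hs h2 hm t := by
      apply mx_inj
      rw [mx_mul, mx_Dsg, mx_Dsg, mx_Dsg, diagonal_mul_diagonal]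
      congr 1
      funext i
      exact dsg_mul s t i
    rw [h, map_mul, map_mul]

lemma hsg_range (hs : ∀ x : K, star x = x) (h2 : (2 : K) ≠ 0) (hm : Odd m)
    (ε : SOm K (m + 1) →* G) (u : GU K (m + 1)) : (hsg hs h2 hm ε u).range = Ae ε u := by
  have hev : Even (m + 1) := by
    obtain ⟨k, rfl⟩ := hm
    exact ⟨k + 1, by ring⟩
  ext y
  constructor
  · rintro ⟨s, rfl⟩
    exact ⟨Dsg hs h2 hm s, ⟨dsg K s, fun i => by rw [pow_two, dsg_sq], rfl⟩, rfl⟩
  · rintro ⟨g, ⟨d, hd, hg⟩, rfl⟩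
    choose s hs' using fun i : Fin m => sg_surj (hd i.castSucc)
    refine ⟨s, ?_⟩
    have h1 : ∏ i, d i = 1 := (diag_mem_iff hs h2 hev (g := g.1) hg).1 g.2
    rw [Fin.prod_univ_castSucc] at h1
    have h3 : d = dsg K s := by
      funext i
      refine Fin.lastCases ?_ (fun i => ?_) i
      · rw [dsg_last, sg_prod, Finset.prod_congr rfl fun i _ => hs' i]
        have h4 := hd (Fin.last m)
        rw [pow_two] at h4
        calc d (Fin.last m) = ((∏ i : Fin m, d i.castSucc) * d (Fin.last m)) * d (Fin.last m) := by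
              rw [h1, one_mul]
          _ = _ := by rw [mul_assoc, h4, mul_one]
      · rw [dsg_castSucc, hs']
    have h4 : g = Dsg hs h2 hm s := by
      apply mx_inj
      rw [mx_Dsg, ← h3]
      exact hg
    rw [h4]
    rfl

lemma hsg_ker (hs : ∀ x : K, star x = x) (h2 : (2 : K) ≠ 0) (hm : Odd m)
    {ε : SOm K (m + 1) →* G}
    (hker : ∀ g : SOm K (m + 1), ε g = 1 ↔ ∃ a : K, mx g = a • (1 : Matrix (Fin (m + 1)) (Fin (m + 1)) K))
    (u : GU K (m + 1)) (s : Fin m → ℤˣ) :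
    s ∈ (hsg hs h2 hm ε u).ker ↔ ∃ z : ℤˣ, s = fun _ => z := by
  have e : s ∈ (hsg hs h2 hm ε u).ker ↔
      ∃ a : K, mx (Dsg hs h2 hm s) = a • (1 : Matrix (Fin (m + 1)) (Fin (m + 1)) K) := by
    rw [MonoidHom.mem_ker]
    show ε (cjO u (Dsg hs h2 hm s)) = 1 ↔ _
    rw [hker]
    constructor
    · rintro ⟨a, ha⟩
      rw [mx_cjO, ← conj_smul_one u] at ha
      exact ⟨a, conj_inj u ha⟩
    · rintro ⟨a, ha⟩
      exact ⟨a, by rw [mx_cjO, ha, conj_smul_one]⟩
  rw [e]
  have hent : ∀ a : K, mx (Dsg hs h2 hm s) = a • (1 : Matrix (Fin (m + 1)) (Fin (m + 1)) K) ↔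
      ∀ i, dsg K s i = a := by
    intro a
    rw [mx_Dsg, ← diagonal_one, ← diagonal_smul]
    constructor
    · intro h i
      have h1 := congrFun (diagonal_injective h) i
      rw [h1]
      simp
    · intro h
      congr 1
      funext i
      rw [h i]
      simp
  constructor
  · rintro ⟨a, ha⟩
    rw [hent] at ha
    obtain ⟨k, rfl⟩ := hm
    refine ⟨s ⟨0, by omega⟩, ?_⟩
    funext i
    apply sg_inj (K := K) h2
    rw [← dsg_castSucc (K := K) s i, ← dsg_castSucc (K := K) s ⟨0, by omega⟩, ha, ha]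
  · rintro ⟨z, rfl⟩
    refine ⟨sg z, (hent _).2 fun i => ?_⟩
    refine Fin.lastCases ?_ (fun i => ?_) i
    · rw [dsg_last, Finset.prod_const, Finset.card_univ, Fintype.card_fin]
      congr 1
      obtain ⟨k, rfl⟩ := hm
      rw [pow_succ, pow_mul]
      have h1 : z ^ 2 = 1 := Int.units_sq z
      rw [h1, one_pow, one_mul]
    · rw [dsg_castSucc]

/-- the order of `Ae` -/
theorem card_Ae (hs : ∀ x : K, star x = x) (h2 : (2 : K) ≠ 0) (hm : Odd m)
    {ε : SOm K (m + 1) →* G}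
    (hker : ∀ g : SOm K (m + 1), ε g = 1 ↔ ∃ a : K, mx g = a • (1 : Matrix (Fin (m + 1)) (Fin (m + 1)) K))
    (u : GU K (m + 1)) : Nat.card (Ae ε u) = 2 ^ (m - 1) := by
  have hm0 : 0 < m := hm.pos
  have h1 : Nat.card (Fin m → ℤˣ) = 2 ^ m := by
    rw [Nat.card_eq_fintype_card, Fintype.card_fun, Fintype.card_fin]
    rfl
  have h3 : Nat.card (hsg hs h2 hm ε u).ker = 2 := by
    have e : ℤˣ ≃ (hsg hs h2 hm ε u).ker := Equiv.ofBijective
      (fun z => ⟨fun _ => z, (hsg_ker hs h2 hm hker u _).2 ⟨z, rfl⟩⟩) (by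
        constructor
        · intro y z hyz
          exact congrFun (congrArg Subtype.val hyz) ⟨0, hm0⟩
        · rintro ⟨s, hs'⟩
          obtain ⟨z, rfl⟩ := (hsg_ker hs h2 hm hker u s).1 hs'
          exact ⟨z, rfl⟩)
    rw [← Nat.card_congr e, Nat.card_eq_fintype_card]
    rfl
  have h4 := Subgroup.card_mul_index (hsg hs h2 hm ε u).ker
  rw [Subgroup.index_ker, hsg_range, h1, h3] at h4
  obtain ⟨k, rfl⟩ : ∃ k, m = k + 1 := ⟨m - 1, by omega⟩
  rw [pow_succ, mul_comm] at h4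
  exact Nat.eq_of_mul_eq_mul_right two_pos h4

lemma Ae_le {L : Subgroup G} {ε : SOm K (m + 1) →* G} (hr : ε.range = L) (u : GU K (m + 1)) :
    Ae ε u ≤ L := by
  rw [← hr]
  rintro _ ⟨g, -, rfl⟩
  exact ⟨cjO u g, rfl⟩

theorem Ae_ApS (hs : ∀ x : K, star x = x) (h2 : (2 : K) ≠ 0) (hm : Odd m) (hm3 : 3 ≤ m)
    {ε : SOm K (m + 1) →* G}
    (hker : ∀ g : SOm K (m + 1), ε g = 1 ↔ ∃ a : K, mx g = a • (1 : Matrix (Fin (m + 1)) (Fin (m + 1)) K))
    (u : GU K (m + 1)) : Ae ε u ∈ ApS 2 G := by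
  refine ⟨?_, ?_, ?_⟩
  · intro h
    have h1 := card_Ae hs h2 hm hker u
    rw [h, Subgroup.card_bot] at h1
    have h3 : 2 ^ 1 ≤ 2 ^ (m - 1) := Nat.pow_le_pow_right two_pos (by omega)
    omega
  · intro x hx y hy
    rw [← hsg_range hs h2 hm] at hx hy
    obtain ⟨s, rfl⟩ := hx
    obtain ⟨t, rfl⟩ := hy
    rw [← map_mul, ← map_mul, mul_comm]
  · intro x hx
    rw [← hsg_range hs h2 hm] at hx
    obtain ⟨s, rfl⟩ := hx
    rw [← map_pow]
    have h1 : s ^ 2 = 1 := by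
      funext i
      exact Int.units_sq (s i)
    rw [h1, map_one]

end

end

end Vale.Agent.P240.R2.H296.EC
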