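import Mathlib.LinearAlgebra.Matrix.GeneralLinearGroup.Defs
import Mathlib.GroupTheory.Abelianization.Defs

/-!
The groups `PΩ` of nondegenerate symmetric bilinear forms over finite fields of odd order.
-/

set_option autoImplicit false

namespace Vale.Agent.P240.R2.OF

open Matrix

variable {F : Type*} [Field F] {n : ℕ}

/-- The isometry group of the bilinear form with Gram matrix `A`. -/
def OA (A : Matrix (Fin n) (Fin n) F) : Subgroup (GL (Fin n) F) where
  carrier := {g | (g.1)ᵀ * A * g.1 = A}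
  mul_mem' := by
    intro g h (hg : (g.1)ᵀ * A * g.1 = A) (hh : (h.1)ᵀ * A * h.1 = A)
    change ((g * h).1)ᵀ * A * (g * h).1 = A
    rw [Units.val_mul, Matrix.transpose_mul]
    calc (h.1)ᵀ * (g.1)ᵀ * A * (g.1 * h.1) = (h.1)ᵀ * ((g.1)ᵀ * A * g.1) * h.1 := by
          simp only [Matrix.mul_assoc]
      _ = A := by rw [hg, hh]
  one_mem' := by
    change ((1 : GL (Fin n) F).1)ᵀ * A * (1 : GL (Fin n) F).1 = A
    rw [Units.val_one, Matrix.transpose_one, Matrix.one_mul, Matrix.mul_one]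
  inv_mem' := by
    intro g (hg : (g.1)ᵀ * A * g.1 = A)
    change ((g⁻¹).1)ᵀ * A * (g⁻¹).1 = A
    have h0 : g.1 * (g⁻¹).1 = 1 := by rw [← Units.val_mul, mul_inv_cancel, Units.val_one]
    have h1 : ((g⁻¹).1)ᵀ * (g.1)ᵀ = 1 := by rw [← Matrix.transpose_mul, h0, Matrix.transpose_one]
    calc ((g⁻¹).1)ᵀ * A * (g⁻¹).1 = ((g⁻¹).1)ᵀ * ((g.1)ᵀ * A * g.1) * (g⁻¹).1 := by rw [hg]
      _ = (((g⁻¹).1)ᵀ * (g.1)ᵀ) * A * (g.1 * (g⁻¹).1) := by simp only [Matrix.mul_assoc]
      _ = A := by rw [h1, h0, Matrix.one_mul, Matrix.mul_one]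

/-- The group `PΩ` of the bilinear form with Gram matrix `A`: the commutator subgroup of the isometry
group modulo its centre. -/
abbrev POm (A : Matrix (Fin n) (Fin n) F) : Type _ :=
  ↥(commutator (↥(OA A) ⧸ Subgroup.center ↥(OA A)))

/-- `L` is isomorphic to `PΩ` of a nondegenerate symmetric bilinear form of dimension at least `5`
over a finite field of odd order. -/
def OrthFac (L : Type*) [Group L] : Prop :=
  ∃ (n : ℕ) (F : Type) (_ : Field F) (_ : Finite F) (A : Matrix (Fin n) (Fin n) F),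
    5 ≤ n ∧ Nat.card F % 2 = 1 ∧ Aᵀ = A ∧ A.det ≠ 0 ∧ Nonempty (L ≃* POm A)

end Vale.Agent.P240.R2.OF
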