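import Vale.Agent.P240.R2.H687.Gal
import Vale.Agent.P240.R2.H829.Cnt3

/-!
Field automorphisms of order `2` of a finite field.
-/

set_option autoImplicit false

namespace Vale.Agent.P240.R2.H296.O

open Vale.Agent.P240.R2.AS Vale.Agent.P240.R2.H687
open scoped Classical

universe u

noncomputable section

variable {K : Type u} [Field K] [Fintype K] [StarRing K]

/-- a field automorphism of order `2` is `x ↦ x ^ q`, where `|K| = q ^ 2` -/
theorem inv_data (hs : ∀ x : K, star x = x) (σ : K ≃+* K) (h2 : (σ : RingAut K) ^ 2 = 1)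
    (h1 : σ ≠ RingEquiv.refl K) : ∃ q : ℕ, Nat.card K = q ^ 2 ∧ ∀ x : K, σ x = x ^ q := by
  obtain ⟨τ, hτ⟩ : ∃ τ : SA K, τ.1 = σ := ⟨⟨σ, fun x => by rw [hs, hs]⟩, rfl⟩
  have hτ2 : τ ^ 2 = 1 := by
    apply Subtype.ext
    rw [Subgroup.coe_pow, hτ]
    exact h2
  have hτ1 : τ ≠ 1 := by
    intro h
    apply h1
    rw [← hτ, h]
    rfl
  have hord : orderOf τ = 2 := by
    haveI : Fact (Nat.Prime 2) := ⟨Nat.prime_two⟩
    exact orderOf_eq_prime hτ2 hτ1
  obtain ⟨hK, k, hk⟩ := card_fix τ Nat.prime_two hord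
  set q := Nat.card (FT τ) with hq
  have hq2 : 2 ≤ q := by
    by_contra h
    have h3 : q = 0 ∨ q = 1 := by omega
    have h4 : 1 < Nat.card K := Finite.one_lt_card
    rcases h3 with h3 | h3 <;> rw [hK, h3] at h4 <;> norm_num at h4
  refine ⟨q, hK, fun x => ?_⟩
  rcases Nat.even_or_odd' k with ⟨m, rfl | rfl⟩
  · exfalso
    obtain ⟨y, hy⟩ := H829.exists_pow_ne (K := K) hq2 hK
    apply hy
    rw [← hk y, pow_mul, hτ2, one_pow]
    rfl
  · rw [← hk x, pow_succ, pow_mul, hτ2, one_pow, one_mul, hτ]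

end

end Vale.Agent.P240.R2.H296.O
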