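import Vale.Agent.P240.R2.H387.Fs
import Vale.Agent.P240.R2.H38.V1
import Vale.Agent.P240.R2.H387.Six

/-!
Reflections generate the orthogonal group of a finite field (trivial star); field automorphisms act
trivially on the abelianization of `O_n(q) / {1, -1}`.
-/

set_option autoImplicit false

namespace Vale.Agent.P240.R2.H296.O

open Matrix Vale.Agent.P240.R2.AS Vale.Agent.P240.R2.H387
open Vale.Agent.P240.R2.H38 (gmap gmap_coe gu_star star_gu gu_mul gu_inv)
open scoped Classical

universe u

noncomputable section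

section
variable {K : Type u} [Field K] [StarRing K] {n : ℕ}

/-- the reflection -/
def rf (v : Fin n → K) : GU K n := eU (-1) (pr v)

lemma neg_one_star : (-1 : K) * star (-1 : K) = 1 := by
  rw [star_neg, star_one]; ring

lemma rf_coe {v : Fin n → K} (hv : hf v v ≠ 0) : (rf v).1 = 1 + ((-1 : K) - 1) • pr v := by
  rw [rf, eU, dif_pos ⟨pr_star v, pr_idem hv, neg_one_star⟩]

lemma rf_mulVec {v : Fin n → K} (hv : hf v v ≠ 0) (u : Fin n → K) :
    (rf v).1 *ᵥ u = u - (2 * ((hf v v)⁻¹ * hf v u)) • v := by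
  rw [rf_coe hv, add_mulVec, one_mulVec, smul_mulVec, pr_mulVec, smul_smul]
  rw [sub_eq_add_neg u, ← neg_smul]
  congr 2
  ring

lemma gu_hf (g : GU K n) (u v : Fin n → K) : hf (g.1 *ᵥ u) (g.1 *ᵥ v) = hf u v := by
  rw [hf, hf, star_mulVec, ← dotProduct_mulVec, mulVec_mulVec, ← star_eq_conjTranspose, star_gu,
    one_mulVec]

lemma pr_gu (g : GU K n) (v : Fin n → K) : pr (g.1 *ᵥ v) = g.1 * pr v * star g.1 := by
  rw [pr, pr, gu_hf, mul_smul_comm, smul_mul_assoc, mul_vecMulVec, vecMulVec_mul, star_mulVec,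
    star_eq_conjTranspose]

lemma rf_conj (g : GU K n) {v : Fin n → K} (hv : hf v v ≠ 0) :
    g * rf v * g⁻¹ = rf (g.1 *ᵥ v) := by
  apply Subtype.ext
  rw [rf_coe (by rwa [gu_hf]), gu_mul, gu_mul, gu_inv, rf_coe hv, pr_gu]
  rw [mul_add, add_mul, mul_one, gu_star, mul_smul_comm, smul_mul_assoc]

variable (K n) in
/-- the subgroup generated by the reflections -/
def Rg : Subgroup (GU K n) := Subgroup.closure {g | ∃ v : Fin n → K, hf v v ≠ 0 ∧ g = rf v}

lemma rf_mem {v : Fin n → K} (hv : hf v v ≠ 0) : rf v ∈ Rg K n :=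
  Subgroup.subset_closure ⟨v, hv, rfl⟩

lemma hf_comm (hs : ∀ x : K, star x = x) (u v : Fin n → K) : hf u v = hf v u := by
  rw [← hf_star v u, hs]

lemma hf_sub_self (hs : ∀ x : K, star x = x) (v w : Fin n → K) :
    hf (v - w) (v - w) = hf v v + hf w w - 2 * hf v w := by
  have h1 : v - w = v + (-1 : K) • w := by rw [neg_one_smul, sub_eq_add_neg]
  rw [h1, hf_add_right, hf_add_left, hf_add_left, hf_smul_right, hf_smul_right, hf_smul_left,
    hf_smul_left, hs, hf_comm hs w v]
  ring

/-- a product of reflections that moves `v` to `w` -/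
lemma exists_mv (hs : ∀ x : K, star x = x) (h2 : (2 : K) ≠ 0) {v w : Fin n → K}
    (hvw : hf v v = hf w w) (hv : hf v v ≠ 0) :
    ∃ r ∈ Rg K n, r.1 *ᵥ v = w ∧ ∀ u, hf v u = 0 → hf w u = 0 → r.1 *ᵥ u = u := by
  have hw : hf w w ≠ 0 := hvw ▸ hv
  by_cases h : hf (v - w) (v - w) = 0
  · -- `v + w` is not isotropic
    have h1 : hf v w = hf v v := by
      rw [hf_sub_self hs, ← hvw] at h
      have h3 : 2 * (hf v v - hf v w) = 0 := by linear_combination h
      rcases mul_eq_zero.1 h3 with h4 | h4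
      · exact absurd h4 h2
      · exact (sub_eq_zero.1 h4).symm
    have h3 : hf (v + w) (v + w) = 4 * hf v v := by
      rw [hf_add_right, hf_add_left, hf_add_left, hf_comm hs w v, h1, ← hvw]
      ring
    have h4 : (4 : K) ≠ 0 := by
      have : (4 : K) = 2 * 2 := by norm_num
      rw [this]
      exact mul_ne_zero h2 h2
    have h5 : hf (v + w) (v + w) ≠ 0 := by rw [h3]; exact mul_ne_zero h4 hv
    refine ⟨rf w * rf (v + w), mul_mem (rf_mem hw) (rf_mem h5), ?_, ?_⟩
    · have h7 : hf (v + w) v = hf v v + hf v v := by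
        rw [hf_add_left, hf_comm hs w v, h1]
      rw [gu_mul, ← mulVec_mulVec, rf_mulVec h5, h7, h3]
      have h6 : 2 * ((4 * hf v v)⁻¹ * (hf v v + hf v v)) = 1 := by
        field_simp
        norm_num
      rw [h6, one_smul]
      have h7 : v - (v + w) = (-1 : K) • w := by
        rw [neg_one_smul]; abel
      rw [h7, mulVec_smul, rf_mulVec hw, inv_mul_cancel₀ hw, mul_one]
      module
    · intro u hu hu'
      have h7 : hf (v + w) u = 0 := by rw [hf_add_left, hu, hu', add_zero]
      rw [gu_mul, ← mulVec_mulVec, rf_mulVec h5, h7, mul_zero, mul_zero,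
        zero_smul, sub_zero, rf_mulVec hw, hu', mul_zero, mul_zero, zero_smul, sub_zero]
  · refine ⟨rf (v - w), rf_mem h, ?_, ?_⟩
    · rw [rf_mulVec h]
      have h1 : hf (v - w) v = hf v v - hf v w := by
        have h1 : v - w = v + (-1 : K) • w := by rw [neg_one_smul, sub_eq_add_neg]
        rw [h1, hf_add_left, hf_smul_left, hs, hf_comm hs w v]
        ring
      have h3 : hf (v - w) (v - w) = 2 * (hf v v - hf v w) := by
        rw [hf_sub_self hs, ← hvw]; ring
      have h5 : hf v v - hf v w ≠ 0 := by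
        intro h6
        apply h
        rw [h3, h6, mul_zero]
      have h4 : 2 * ((hf (v - w) (v - w))⁻¹ * hf (v - w) v) = 1 := by
        rw [h1, h3]
        field_simp
      rw [h4, one_smul, sub_sub_cancel]
    · intro u hu hu'
      have h1 : v - w = v + (-1 : K) • w := by rw [neg_one_smul, sub_eq_add_neg]
      rw [rf_mulVec h]
      have h3 : hf (v - w) u = 0 := by
        rw [h1, hf_add_left, hf_smul_left, hu, hu', mul_zero, add_zero]
      rw [h3, mul_zero, mul_zero, zero_smul, sub_zero]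

lemma hf_std (i j : Fin n) : hf (Pi.single i (1 : K)) (Pi.single j 1) = if i = j then 1 else 0 :=
  hf_single i j

/-- **The reflections generate the orthogonal group.** -/
theorem Rg_top (hs : ∀ x : K, star x = x) (h2 : (2 : K) ≠ 0) : Rg K n = ⊤ := by
  rw [eq_top_iff]
  intro g _
  have key : ∀ k : ℕ, k ≤ n → ∃ h ∈ Rg K n, ∀ i : Fin n, (i : ℕ) < k →
      (h * g).1 *ᵥ Pi.single i (1 : K) = Pi.single i 1 := by
    intro k
    induction k with
    | zero => exact fun _ => ⟨1, one_mem _, fun i hi => absurd hi (Nat.not_lt_zero _)⟩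
    | succ k ih =>
      intro hk
      obtain ⟨h, hh, h1⟩ := ih (by omega)
      set j : Fin n := ⟨k, by omega⟩ with hj
      set v := (h * g).1 *ᵥ Pi.single j (1 : K) with hv
      have h3 : hf v v = 1 := by rw [hv, gu_hf, hf_std, if_pos rfl]
      have h4 : hf (Pi.single j (1 : K) : Fin n → K) (Pi.single j 1) = 1 := by
        rw [hf_std, if_pos rfl]
      obtain ⟨r, hr, hr1, hr2⟩ := exists_mv hs h2 (v := v) (w := Pi.single j (1 : K))
        (by rw [h3, h4]) (by rw [h3]; exact one_ne_zero)
      refine ⟨r * h, mul_mem hr hh, fun i hi => ?_⟩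
      rw [mul_assoc, gu_mul, ← mulVec_mulVec]
      rcases Nat.lt_or_ge i k with hik | hik
      · rw [h1 i hik]
        have hne : j ≠ i := by
          intro e
          rw [← e] at hik
          exact absurd hik (by simp [hj])
        refine hr2 _ ?_ ?_
        · have h5 := gu_hf (h * g) (Pi.single j (1 : K)) (Pi.single i 1)
          rw [h1 i hik, hf_std, if_neg hne] at h5
          exact h5
        · rw [hf_std, if_neg hne]
      · have : i = j := by
          apply Fin.ext
          show (i : ℕ) = k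
          omega
        subst this
        exact hr1
  obtain ⟨h, hh, h1⟩ := key n le_rfl
  have h3 : h * g = 1 := by
    apply Subtype.ext
    show (h * g).1 = 1
    ext a b
    have h4 := congrFun (h1 b b.2) a
    rw [mulVec_single_one, col_apply] at h4
    rw [h4, Pi.single_apply, one_apply]
  have h4 : g = h⁻¹ := by
    rw [eq_inv_iff_mul_eq_one]
    exact mul_eq_one_comm.1 h3
  rw [h4]
  exact inv_mem hh

/-- the abelianization -/
def ab (K : Type u) [Field K] [StarRing K] (n : ℕ) : GU K n →* Abelianization (PGU K n) :=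
  Abelianization.of.comp (QuotientGroup.mk' (Subgroup.center (GU K n)))

lemma ab_eq_one {g : GU K n} : ab K n g = 1 ↔ (QuotientGroup.mk g : PGU K n) ∈ commutator (PGU K n) := by
  show Abelianization.of (QuotientGroup.mk g : PGU K n) = 1 ↔ _
  rw [← MonoidHom.mem_ker, Abelianization.ker_of]

lemma ab_rf (hs : ∀ x : K, star x = x) (h2 : (2 : K) ≠ 0) {v w : Fin n → K}
    (hvw : hf v v = hf w w) (hv : hf v v ≠ 0) : ab K n (rf v) = ab K n (rf w) := by
  obtain ⟨r, -, hr, -⟩ := exists_mv hs h2 hvw hv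
  rw [← hr, ← rf_conj r hv, map_mul, map_mul, map_inv, mul_comm, inv_mul_cancel_left]

lemma rf_smul {a : K} (ha : a ≠ 0) (v : Fin n → K) : rf (a • v) = rf v := by
  rw [rf, pr_smul ha, rf]

variable [Fintype K]

lemma gmap_rf (s : K ≃+* K) (hc : ∀ x : K, s (star x) = star (s x)) {v : Fin n → K}
    (hv : hf v v ≠ 0) : gmap s hc (rf v) = rf (fun i => s (v i)) := by
  have hv' : hf (fun i => s (v i)) (fun i => s (v i)) ≠ 0 := by
    rw [← hf_map hc]
    exact (map_ne_zero s).2 hv
  apply Subtype.ext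
  rw [gmap_coe, rf_coe hv, rf_coe hv', ← pr_map hc]
  ext i j
  simp only [Matrix.map_apply, Matrix.add_apply, Matrix.smul_apply, smul_eq_mul, map_add, map_mul,
    map_sub, map_neg, map_one, Matrix.one_apply]
  split_ifs <;> simp

/-- field automorphisms `x ↦ x ^ q`, `q` odd, act trivially on the abelianization -/
theorem ab_gmap (hs : ∀ x : K, star x = x) (h2 : (2 : K) ≠ 0) {q : ℕ} (hq : Odd q)
    (s : K ≃+* K) (hsq : ∀ x : K, s x = x ^ q) (hc : ∀ x : K, s (star x) = star (s x))
    (g : GU K n) : ab K n (gmap s hc g) = ab K n g := by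
  have hg : g ∈ Rg K n := by rw [Rg_top hs h2]; trivial
  refine Subgroup.closure_induction (p := fun g _ => ab K n (gmap s hc g) = ab K n g) ?_ ?_ ?_ ?_ hg
  · rintro _ ⟨v, hv, rfl⟩
    rw [gmap_rf s hc hv]
    obtain ⟨k, hk⟩ := hq
    have h3 : hf (fun i => s (v i)) (fun i => s (v i)) = hf (((hf v v) ^ k) • v) (((hf v v) ^ k) • v) := by
      rw [← hf_map hc, hsq, hf_smul_left, hf_smul_right, hs, hk]
      ring
    have h4 : hf (fun i => s (v i)) (fun i => s (v i)) ≠ 0 := by
      rw [← hf_map hc]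
      exact (map_ne_zero s).2 hv
    rw [ab_rf hs h2 h3 h4, rf_smul (pow_ne_zero k hv)]
  · have : gmap s hc (1 : GU K n) = 1 := by
      apply Subtype.ext
      rw [gmap_coe]
      exact Matrix.map_one s (map_zero s) (map_one s)
    rw [this]
  · intro x y _ _ hx hy
    have : gmap s hc (x * y) = gmap s hc x * gmap s hc y := by
      apply Subtype.ext
      rw [gmap_coe, gu_mul, gu_mul, gmap_coe, gmap_coe, Matrix.map_mul]
    rw [this, map_mul, map_mul, hx, hy]
  · intro x _ hx
    have : gmap s hc x⁻¹ = (gmap s hc x)⁻¹ := by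
      rw [eq_inv_iff_mul_eq_one]
      apply Subtype.ext
      rw [gu_mul, gmap_coe, gmap_coe, ← Matrix.map_mul, ← gu_mul, inv_mul_cancel]
      exact Matrix.map_one s (map_zero s) (map_one s)
    rw [this, map_inv, map_inv, hx]

end

end

end Vale.Agent.P240.R2.H296.O
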