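import Vale.Agent.P240.R2.H296.OAsm
import Vale.Agent.P240.R2.H296.OInv
import Vale.Agent.P240.R2.H275.OGood
import Vale.Agent.P240.R2.H651.GenP
import Vale.Agent.P240.R2.H281.T4
import Vale.Agent.P240.R2.H281.H90t
import Vale.Agent.P240.R2.H145.OTr
import Vale.Agent.P240.R2.H487.TF

/-!
`LocTopF` at the prime `2` for the groups isomorphic to `Ω_n(q)`, `n` odd.
-/

set_option autoImplicit false

namespace Vale.Agent.P240.R2.H296.O

open Matrix Vale.Agent.P240.R2.AS Vale.Agent.P240.R2.H38 Vale.Agent.P240.K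
open Vale.Agent.P240.R2.H387 (Fs mem_Fs)
open Vale.Agent.P240.R2.H487 (LocTopF)
open scoped Classical

universe u v w

noncomputable section

variable {K : Type u} [Field K] [Fintype K] [StarRing K] {n : ℕ}
variable {G : Type v} [Group G]

/-- **`LocTopF` at the prime `2`** for the groups isomorphic to `Ω_n(q)`: `n ≥ 5` odd, `q` odd,
`q ∉ {3, 5, 9, 25}`. -/
theorem locTopF_Om [Finite G] (𝕜 : Type w) [Field 𝕜] (hs : ∀ x : K, star x = x)
    (ho : Odd (Nat.card K)) (h7 : 7 ≤ Nat.card K) (h9 : Nat.card K ≠ 9) (h25 : Nat.card K ≠ 25)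
    (hn : Odd n) (hn5 : 5 ≤ n) {L : Subgroup G} (e : ↥(commutator (PGU K n)) ≃* ↥L) :
    LocTopF 𝕜 2 L := by
  have h2 : (2 : K) ≠ 0 := H221.two_ne ho
  have hS := H275.sgood_Om (n := n) hs ho h7 hn (by omega)
  obtain ⟨ε, hε⟩ := H651.exists_pHom_Om H145.stmtO6a hs ho h7 hn5 hn (p := 2) two_ne_zero hS L e
  refine locTopF_O 𝕜 hs h2 hn hS (H281.h90_triv hs h2 hn) hε
    (H281.t_pos_triv hs h2 h7 (by omega)) ?_
  intro σ hσ2 hσ1
  obtain ⟨q, hK, hsq⟩ := inv_data hs σ hσ2 hσ1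
  have hq : Odd q := by
    by_contra h
    have h3 : Even (q ^ 2) := (Nat.not_odd_iff_even.1 h).pow_of_ne_zero two_ne_zero
    rw [← hK] at h3
    exact (Nat.not_odd_iff_even.2 h3) ho
  have hq7 : 7 ≤ q := by
    obtain ⟨k, rfl⟩ := hq
    by_contra h
    have h3 : k = 0 ∨ k = 1 ∨ k = 2 := by omega
    rcases h3 with rfl | rfl | rfl
    · rw [hK] at h7; norm_num at h7
    · exact h9 hK
    · exact h25 hK
  exact ⟨q, hq, hK, hsq, H829.card_Fs_lt_n hs hq hK σ hsq hn hn5 hq7⟩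

/-- every group isomorphic to `Ω_n(q)` (`n ≥ 5` odd, `q` odd, `q ∉ {3, 5, 9, 25}`) is a top
factor at the prime `2` -/
theorem topFac_Om {K : Type} [Field K] [Fintype K] [StarRing K] {n : ℕ} (𝕜 : Type w) [Field 𝕜]
    (hs : ∀ x : K, star x = x) (ho : Odd (Nat.card K)) (h7 : 7 ≤ Nat.card K)
    (h9 : Nat.card K ≠ 9) (h25 : Nat.card K ≠ 25) (hn : Odd n) (hn5 : 5 ≤ n)
    {L : Type v} [Group L] (e : L ≃* ↥(commutator (PGU K n))) : H487.TopFac 𝕜 2 L :=
  fun _ _ _ _ ⟨f⟩ => locTopF_Om 𝕜 hs ho h7 h9 h25 hn hn5 (e.symm.trans f)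

end

end Vale.Agent.P240.R2.H296.O
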