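import Vale.Agent.P240.R2.H296.ORef

/-!
The orthogonal group modulo its commutator subgroup is an elementary abelian `2`-group.
-/

set_option autoImplicit false

namespace Vale.Agent.P240.R2.H296.O

open Matrix Vale.Agent.P240.R2.AS Vale.Agent.P240.R2.H387
open Vale.Agent.P240.R2.H38 (gmap gmap_coe gu_star star_gu gu_mul gu_inv)
open scoped Classical

universe u

noncomputable section

variable {K : Type u} [Field K] [StarRing K] {n : ℕ}

lemma rf_sq {v : Fin n → K} (hv : hf v v ≠ 0) : rf v * rf v = 1 := by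
  apply Subtype.ext
  show (rf v).1 * (rf v).1 = 1
  rw [rf_coe hv]
  have h := pr_idem hv
  set c : K := (-1 : K) - 1 with hc
  have e : (1 + c • pr v) * (1 + c • pr v) = 1 + (2 * c + c * c) • pr v := by
    rw [add_mul, one_mul, mul_add, mul_one, smul_mul_smul_comm, h, add_smul, two_mul, add_smul]
    abel
  have e2 : 2 * c + c * c = 0 := by rw [hc]; ring
  rw [e, e2, zero_smul, add_zero]

lemma ab_sq (hs : ∀ x : K, star x = x) (h2 : (2 : K) ≠ 0) (g : GU K n) : ab K n g ^ 2 = 1 := by
  have hg : g ∈ Rg K n := by rw [Rg_top hs h2]; trivial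
  refine Subgroup.closure_induction (p := fun g _ => ab K n g ^ 2 = 1) ?_ ?_ ?_ ?_ hg
  · rintro _ ⟨v, hv, rfl⟩
    rw [← map_pow, pow_two, rf_sq hv, map_one]
  · rw [map_one, one_pow]
  · intro x y _ _ hx hy
    rw [map_mul, mul_pow, hx, hy, one_mul]
  · intro x _ hx
    rw [map_inv, inv_pow, hx, inv_one]

/-- squares lie in the commutator subgroup -/
theorem sq_mem (hs : ∀ x : K, star x = x) (h2 : (2 : K) ≠ 0) (x : PGU K n) :
    x ^ 2 ∈ commutator (PGU K n) := by
  obtain ⟨g, rfl⟩ := QuotientGroup.mk_surjective x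
  have h := ab_sq hs h2 g
  rw [← map_pow, ab_eq_one] at h
  exact h

end

end Vale.Agent.P240.R2.H296.O
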