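import Vale.Agent.P240.R2.H432.QDefs

/-!
The orthogonal groups of quadratic forms over finite fields, for an odd prime `p`.
-/

set_option autoImplicit false

namespace Vale.Agent.P240.R2.OF

open Vale.Agent.P240.R2.H432.Q (POQ)

/-- `L` is isomorphic to `PΩ(Q)` for a quadratic form `Q` on `F ^ n`, `n ≥ 5`, with nondegenerate polar
form, where the characteristic of `F` is `2` or `p`, or `n` is odd and `|F|` is not `3` or `5`. -/
def IsPOQOdd (p : ℕ) (F : Type*) [Field F] (L : Type*) [Group L] : Prop :=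
  ∃ (n : ℕ) (Q : QuadraticForm F (Fin n → F)), 5 ≤ n ∧
    (∀ v, (∀ w, QuadraticMap.polar Q v w = 0) → v = 0) ∧
    ((p : F) = 0 ∨ (2 : F) = 0 ∨ (n % 2 = 1 ∧ Nat.card F ∉ ({3, 5} : Set ℕ))) ∧
    Nonempty (L ≃* POQ Q)

end Vale.Agent.P240.R2.OF
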