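import Vale.Agent.P240.R2.H487.AD2
import Vale.Agent.P240.R2.H296.OQDefs

/-!
Alternating groups and classical groups: the conditions in the main theorems.
-/

set_option autoImplicit false

namespace Vale.Agent.P240.R2.AC

open Matrix Vale.Agent.P240.R2.H487

/-- `L` is isomorphic to `PSU_n(q)`, `n ≥ 3`, where `F` has `q ^ 2` elements. -/
def IsPSU (F : Type*) [Field F] (L : Type*) [Group L] : Prop := ∃ n : ℕ, 3 ≤ n ∧ PSUn n F L

/-- `L` is an alternating group or a classical group. -/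
def AltClas (L : Type*) [Group L] : Prop :=
  (∃ n : ℕ, 5 ≤ n ∧ Nonempty (L ≃* alternatingGroup (Fin n))) ∨
    ∃ (F : Type) (_ : Field F) (_ : Finite F),
      (∃ n : ℕ, Nonempty (L ≃* ProjectiveSpecialLinearGroup (Fin n) F)) ∨ IsPSp F L ∨
        IsPSU F L ∨ IsPOm F L

/-- `L` is an alternating group or a classical group, and the groups over certain small fields are as
in `LinTwo` and `Adm`. -/
def AltClasAt (𝕜 : Type*) [Field 𝕜] (l : ℕ) (L : Type*) [Group L] : Prop :=
  (∃ n : ℕ, 5 ≤ n ∧ Nonempty (L ≃* alternatingGroup (Fin n))) ∨ LinTwo 𝕜 l L ∨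
    ∃ (F : Type) (_ : Field F) (_ : Finite F), IsPSp F L ∨
      (Adm 𝕜 l {3, 5, 9, 25} F ∧ (IsPSU F L ∨ IsPOm F L))

/-- `L` is an alternating group, or a symplectic group, or a unitary or orthogonal group over a field
`F` such that `|F|` is not `3`, `5`, `9` or `25`, or `PSL_n(F)`, where `|F|` is even, or `n ≥ 4` is a
power of `2` and `|F|` is not `3`, `5`, `9` or `25`. -/
def AltClasE (L : Type*) [Group L] : Prop :=
  (∃ n : ℕ, 5 ≤ n ∧ Nonempty (L ≃* alternatingGroup (Fin n))) ∨ PauliPSL L ∨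
    ∃ (F : Type) (_ : Field F) (_ : Finite F),
      ((2 : F) = 0 ∧ ∃ n : ℕ, Nonempty (L ≃* ProjectiveSpecialLinearGroup (Fin n) F)) ∨
      IsPSp F L ∨ (Nat.card F ∉ ({3, 5, 9, 25} : Set ℕ) ∧ (IsPSU F L ∨ IsPOm F L))

/-- The groups for an odd prime `p`: `L` is an alternating group or a classical group, where the
orthogonal groups are as in `IsPOQOdd`. -/
def AltClasOdd (p : ℕ) (L : Type*) [Group L] : Prop :=
  (∃ n : ℕ, 5 ≤ n ∧ Nonempty (L ≃* alternatingGroup (Fin n))) ∨
    ∃ (F : Type) (_ : Field F) (_ : Finite F),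
      (∃ n : ℕ, Nonempty (L ≃* ProjectiveSpecialLinearGroup (Fin n) F)) ∨ IsPSp F L ∨
        IsPSU F L ∨ OF.IsPOQOdd p F L

end Vale.Agent.P240.R2.AC
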