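import Vale.Agent.P240.R2.H63.OddMain
import Vale.Agent.P240.R2.H432.QT
import Vale.Agent.P240.R2.H296.OQDefs

/-!
The orthogonal groups of quadratic forms over finite fields of characteristic `2` or `p`, as
composition factors, for an odd prime `p`.
-/

set_option autoImplicit false

namespace Vale.Agent.P240.R2.OF

open Matrix Vale.Agent.P240.K Vale.Agent.P240.H195
open Vale.Agent.P240.R2.H487 Vale.Agent.P240.R2.H63.Odd
open Vale.Agent.P240.R2.H432.Q (OQ POQ)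

universe u v

/-- characteristic `2` or `p` -/
theorem cov_POQ {L : Type u} [Group L] {F : Type} [Field F] [Finite F] {p : ℕ} [hp : Fact p.Prime]
    (hp2 : p ≠ 2) (hs : IsSimpleGroup L) (hnab : ∃ x y : L, x * y ≠ y * x) {n : ℕ} (hn5 : 5 ≤ n)
    {Q : QuadraticForm F (Fin n → F)} (hQ : ∀ v, (∀ w, QuadraticMap.polar Q v w = 0) → v = 0)
    (h : (p : F) = 0 ∨ (2 : F) = 0) (e : L ≃* POQ Q) (𝕜 : Type v) [Field 𝕜] : Cov 𝕜 p L := by
  have hs' : IsSimpleGroup (POQ Q) := e.symm.isSimpleGroup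
  have hc : ∀ x : L, (∀ y, x * y = y * x) → x = 1 := centreless_of_simple hs hnab
  have hc' : ∀ x : POQ Q, (∀ y, x * y = y * x) → x = 1 := centreless_tr e hc
  have hfin : Finite L := Finite.of_equiv _ e.symm.toEquiv
  by_cases h2 : (2 : F) = 0
  · have : Fact (Nat.Prime 2) := ⟨Nat.prime_two⟩
    have : CharP F 2 := CG.charP_of Nat.prime_two (by exact_mod_cast h2)
    exact Cov.lie2 hp.out hp2 (LieType.tr e.symm (H432.Q.poq_lie_two hn5 h2 Q hQ hs' hc'))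
  replace h := h.resolve_right h2
  have : CharP F p := CG.charP_of hp.out h
  rcases Nat.even_or_odd n with hn | hn
  · obtain ⟨k, rfl⟩ : ∃ k, n = 2 * k + 1 + 1 := by
      obtain ⟨a, ha⟩ := hn
      exact ⟨a - 1, by omega⟩
    exact Cov.rigid (RigidLie.tr e.symm (H432.Q.poq_rigid (by omega) Q hQ hs' hc'))
  · obtain ⟨A, hA, hA0, ⟨f⟩⟩ := H432.Q.poq_pom h2 Q hQ
    exact Cov.rigid (rigid_POm hs hn5 (Nat.odd_iff.1 hn) h2 hA hA0 h (e.trans f))

theorem cov_POQOdd {L : Type u} [Group L] {F : Type} [Field F] [Finite F] {p : ℕ}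
    [hp : Fact p.Prime] (hp2 : p ≠ 2) (hs : IsSimpleGroup L) (hnab : ∃ x y : L, x * y ≠ y * x)
    (h : IsPOQOdd p F L) (𝕜 : Type v) [Field 𝕜] : Cov 𝕜 p L := by
  obtain ⟨n, Q, hn5, hQ, hc, ⟨e⟩⟩ := h
  by_cases h1 : (p : F) = 0 ∨ (2 : F) = 0
  · exact cov_POQ hp2 hs hnab hn5 hQ h1 e 𝕜
  obtain ⟨hp0, h2⟩ := not_or.1 h1
  obtain ⟨hn, hq⟩ := (hc.resolve_left hp0).resolve_left h2
  obtain ⟨A, hA, hA0, ⟨f⟩⟩ := H432.Q.poq_pom h2 Q hQ
  exact cov_POm hp2 hs hnab ⟨n, A, hn5, hn, h2, hA, hA0, Or.inr hq, ⟨e.trans f⟩⟩ 𝕜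

end Vale.Agent.P240.R2.OF
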