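import Vale.Agent.P240.R2.H296.ACDefs
import Vale.Agent.P240.R2.H296.OQOdd
import Vale.Agent.P240.R2.H387.E7F
import Vale.Agent.P240.R2.H487.AM4
import Vale.Agent.P240.R2.H945.U4G

/-!
The main theorems for alternating groups and classical groups, all primes.
-/

set_option autoImplicit false
set_option linter.all false

namespace Vale.Agent.P240.R2.AC

open Subgroup Matrix Vale.Agent.P240.K Vale.Agent.P240.H195
open Vale.Agent.P240.R2.H63 Vale.Agent.P240.R2.H275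
open Vale.Agent.P240.R2.H487 hiding AltClas AltClasAt AltClasE IsPSU clas_facT clas_factor clas_three
  clas_comp clas_family clas_minimal

universe u v

section
variable {L : Type u} [Group L] {F : Type} [Field F] [Finite F]

/-- `PSU_n(q)`, `n ≥ 3` -/
theorem IsPSU.topR (𝕜 : Type v) [Field 𝕜] (hs : IsSimpleGroup L)
    (hnab : ∃ x y : L, x * y ≠ y * x) (h : IsPSU F L)
    (hq : Nat.card F ∉ ({3, 5, 9, 25} : Set ℕ)) : TopR 𝕜 2 L := by
  obtain ⟨n, hn3, h⟩ := h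
  by_cases hc : n % 2 = 1 ∨ (2 : F) = 0
  · exact H487.IsPSU.topR 𝕜 hs hnab ⟨n, hn3, hc, h⟩ hq
  obtain ⟨hn, h2⟩ := not_or.1 hc
  obtain ⟨r, hr, hrF⟩ := exists_char' F
  have hr2 : r ≠ 2 := by
    rintro rfl
    exact h2 (by exact_mod_cast hrF)
  left
  obtain ⟨q, hft, hstar, hqo, hq3, hK, hst, ⟨e⟩⟩ := h.data hr hrF hr2
  have hq7 : 7 ≤ q := by
    by_contra hcon
    have h3 : q = 3 ∨ q = 5 := by
      obtain ⟨k, rfl⟩ := hqo
      omega
    apply hq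
    rcases h3 with h3 | h3 <;> rw [hK, h3] <;> simp
  by_cases hn4 : n = 4
  · subst hn4
    exact H945.U4.topFac_psu4 𝕜 ⟨hqo, hK, hst⟩ hq7 hs e
  · exact H387E7.topFac_PSU_even 𝕜 ⟨n, q, F, inferInstance, hft, hstar,
      Nat.even_iff.2 (by omega), Or.inl (by omega), hqo, hq7, hK, hst, ⟨e⟩⟩

/-- unitary and orthogonal groups as composition factors -/
theorem clas_facT {𝕜 : Type v} [Field 𝕜] {l : ℕ} (hl : l.Prime) (hs : IsSimpleGroup L)
    (hn : ∃ x y : L, x * y ≠ y * x) (h : IsPSU F L ∨ IsPOm F L)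
    (ha : Adm 𝕜 l {3, 5, 9, 25} F) : FacT 𝕜 2 l L := by
  rcases h with h | h
  · refine facT_of hl ha (h.topR 𝕜 hs hn) fun hq => ?_
    obtain ⟨n, hn3, h⟩ := h
    exact h.autFree hs hn hn3 (small_odd hq (by simp))
  · exact facT_of hl ha (h.topR 𝕜 hs hn) fun hq => h.autFree hs hn (small_odd hq (by simp))

end

section
variable {G : Type u} [Group G]

/-- the groups in the main theorem for `p = 2` -/
lemma AltClasAt.facS {𝕜 : Type v} [Field 𝕜] {l : ℕ} (hl : l.Prime) {L : Type u} [Group L]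
    (hL : CompFactor G L) (h : AltClasAt 𝕜 l L ∨ Other 𝕜 2 l L) : FacS 𝕜 2 l L := by
  rcases h with (h | h | ⟨F, hF1, hF2, h | ⟨ha, h⟩⟩) | h
  · exact H487.AltClasAt.facS hl hL (Or.inl (Or.inl h))
  · exact H487.AltClasAt.facS hl hL (Or.inl (Or.inr (Or.inl h)))
  · exact H487.AltClasAt.facS hl hL (Or.inl (Or.inr (Or.inr ⟨F, hF1, hF2, Or.inl h⟩)))
  · exact Or.inl (clas_facT hl hL.1 hL.2.1 h ha)
  · exact H487.AltClasAt.facS hl hL (Or.inr h)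

lemma AltClas.at {𝕜 : Type v} [Field 𝕜] (h3 : (3 : 𝕜) = 0) {L : Type u} [Group L]
    (h : AltClas L) : AltClasAt 𝕜 5 L := by
  rcases h with h | ⟨F, hF1, hF2, ⟨n, ⟨e⟩⟩ | h | h⟩
  · exact Or.inl h
  · exact Or.inr (Or.inl (H487.LinTwo.of_three h3 e))
  · exact Or.inr (Or.inr ⟨F, hF1, hF2, Or.inl h⟩)
  · refine Or.inr (Or.inr ⟨F, hF1, hF2, Or.inr ⟨adm_three h3 fun hq => ?_, h⟩⟩)
    simp only [Set.mem_insert_iff, Set.mem_singleton_iff] at hq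
    rcases hq with hq | hq | hq | hq
    · exact ⟨1, Or.inl (by rw [hq, pow_one])⟩
    · exact ⟨1, Or.inr (by rw [hq, pow_one])⟩
    · exact ⟨2, Or.inl (by rw [hq]; norm_num)⟩
    · exact ⟨2, Or.inr (by rw [hq]; norm_num)⟩

/-- **Main theorem**, `p = 2`, composition factors, any field `𝕜`, any prime `l` -/
theorem clas_factor [Fact (Nat.Prime 2)] [Finite G] {𝕜 : Type v} [Field 𝕜] {l : ℕ} (hl : l.Prime)
    (hO : OpTrivial 2 G) (h : ∀ (L : Type u) [Group L], CompFactor G L → 2 ∣ Nat.card L →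
      AltClasAt 𝕜 l L ∨ Other 𝕜 2 l L) : HQ 𝕜 2 G :=
  factor_mainS hl hO fun L _ hL hd => AltClasAt.facS hl hL (h L hL hd)

/-- **Main theorem**, `p = 2`, composition factors, without exceptions -/
theorem clas_three [Fact (Nat.Prime 2)] [Finite G] {𝕜 : Type v} [Field 𝕜] (h3 : (3 : 𝕜) = 0)
    (hO : OpTrivial 2 G) (h : ∀ (L : Type u) [Group L], CompFactor G L → 2 ∣ Nat.card L →
      AltClas L ∨ Other 𝕜 2 5 L) : HQ 𝕜 2 G :=
  clas_factor Nat.prime_five hO fun L _ hL hd => (h L hL hd).imp (fun h => h.at h3) id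

/-- **Main theorem**, `p = 2`, components -/
theorem clas_comp [Fact (Nat.Prime 2)] [Finite G] {𝕜 : Type v} [Field 𝕜] {l : ℕ} (hl : l.Prime)
    (hO : OpTrivial 2 G) (N : Subgroup G) [N.Normal] (hN : ¬ 2 ∣ Nat.card N)
    (hmax : ∀ X : Subgroup G, X.Normal → ¬ 2 ∣ Nat.card X → X ≤ N)
    (h : ∀ L ∈ Q.Comp (Reduced N), AltClasAt 𝕜 l L ∨ Other 𝕜 2 l L) : HQ 𝕜 2 G :=
  comp_mainS hl hO N hN hmax fun L hL hc => AltClasAt.facS hl hc (h L hL)

/-- the groups that can be eliminated -/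
lemma AltClasE.elim (𝕜 : Type v) [Field 𝕜] [Finite G] [Fact (Nat.Prime 2)] {L : Subgroup G}
    (hs : IsSimpleGroup L) (hn : ∃ x y : L, x * y ≠ y * x) (h : AltClasE L) :
    TopFac 𝕜 2 L ∨ LocN 2 L ∨ Removable 𝕜 2 L ∨ RigidLie 2 L ∨
      (((2 : ℕ) : 𝕜) = 0 ∧ JumpSub 𝕜 2 L) ∨
        ((2 : ℕ) = 2 ∧ IsSimpleGroup L ∧ Vale.Agent.P240.R2.H487.PauliPSL L) := by
  rcases h with h | h | ⟨F, hF1, hF2, h | h | ⟨hq, h | h⟩⟩
  · exact H487.AltClasE.elim 𝕜 hs hn (Or.inl h)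
  · exact H487.AltClasE.elim 𝕜 hs hn (Or.inr (Or.inl h))
  · exact H487.AltClasE.elim 𝕜 hs hn (Or.inr (Or.inr ⟨F, hF1, hF2, Or.inl h⟩))
  · exact (h.topR 𝕜 hs hn).elim
  · exact (h.topR 𝕜 hs hn hq).elim
  · exact (h.topR 𝕜 hs hn hq).elim

/-- **Elimination** -/
theorem clas_family [Fact (Nat.Prime 2)] [Finite G] {𝕜 : Type v} [Field 𝕜] {D : Set (Subgroup G)}
    (hconj : ∀ L ∈ D, ∀ g : G, L.map (MulAut.conj g).toMonoidHom ∈ D)
    (hcomm : ∀ L ∈ D, ∀ M ∈ D, L ≠ M → ∀ x ∈ L, ∀ y ∈ M, x * y = y * x)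
    (h : ∀ L ∈ D, IsSimpleGroup L ∧ (∃ x y : L, x * y ≠ y * x) ∧ 2 ∣ Nat.card L ∧ AltClasE L)
    (hC : HQ 𝕜 2 (CenAll D)) : HQ 𝕜 2 G := by
  refine family_elimT hconj hcomm (fun L hL x hx hxy => ?_) (fun L hL => (h L hL).2.2.1)
    (fun L hL => (h L hL).2.2.2.elim 𝕜 (h L hL).1 (h L hL).2.1) hC
  have h1 := centreless_of_simple (h L hL).1 (h L hL).2.1 ⟨x, hx⟩ fun y =>
    Subtype.ext (hxy y y.2)
  exact congrArg Subtype.val h1

/-- **Minimal counterexamples** -/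
theorem clas_minimal [Fact (Nat.Prime 2)] [Finite G] {𝕜 : Type v} [Field 𝕜] (hO : OpTrivial 2 G)
    (hG : ¬ HQ 𝕜 2 G)
    (hmin : ∀ (H : Type u) [Group H] [Finite H], Nat.card H < Nat.card G → OpTrivial 2 H →
      HQ 𝕜 2 H) : ∀ L ∈ Q.Comp G, ¬ AltClasE L := by
  intro L hL h
  have hO' := (H612.minimal_main hO hG hmin).1
  have hf := comp_factor hO hO' hL
  exact minimal_top hO hG hmin hL (h.elim 𝕜 hf.1 hf.2.1)

/-- the groups in the main theorem for odd primes -/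
lemma AltClasOdd.facS {𝕜 : Type v} [Field 𝕜] {p : ℕ} [hp : Fact p.Prime] (hp2 : p ≠ 2)
    {L : Type u} [Group L] (hL : CompFactor G L) (hd : p ∣ Nat.card L)
    (h : AltClasOdd p L ∨ Other 𝕜 p 2 L) : FacS 𝕜 p 2 L := by
  have key : Odd.Cov 𝕜 p L → FacS 𝕜 p 2 L := fun h => Or.inl (h.imp (fun h _ => h) id)
  rcases h with (h | ⟨F, hF1, hF2, ⟨n, ⟨e⟩⟩ | h | ⟨n, hn, h⟩ | h⟩) | h | h
  · exact key (Odd.Cov.good (Or.inl h))
  · exact key (Odd.cov_PSL hp2 hL e 𝕜)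
  · exact key (Odd.cov_PSp hp2 hL.1 hL.2.1 h hd 𝕜)
  · exact key (Odd.cov_PSUn hp2 hL.1 hL.2.1 hn h hd 𝕜)
  · exact key (OF.cov_POQOdd hp2 hL.1 hL.2.1 h 𝕜)
  · exact key (Odd.Cov.good h)
  · exact Or.inr h

/-- **Main theorem**, odd primes, any field `𝕜`, composition factors -/
theorem odd_factor {p : ℕ} [hp : Fact p.Prime] [Finite G] {𝕜 : Type v} [Field 𝕜] (hp2 : p ≠ 2)
    (hO : OpTrivial p G) (h : ∀ (L : Type u) [Group L], CompFactor G L → p ∣ Nat.card L →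
      AltClasOdd p L ∨ Other 𝕜 p 2 L) : HQ 𝕜 p G :=
  factor_mainS Nat.prime_two hO fun L _ hL hd => AltClasOdd.facS hp2 hL hd (h L hL hd)

/-- **Main theorem**, odd primes, any field `𝕜`, components -/
theorem odd_comp {p : ℕ} [hp : Fact p.Prime] [Finite G] {𝕜 : Type v} [Field 𝕜] (hp2 : p ≠ 2)
    (hO : OpTrivial p G) (N : Subgroup G) [N.Normal] (hN : ¬ p ∣ Nat.card N)
    (hmax : ∀ X : Subgroup G, X.Normal → ¬ p ∣ Nat.card X → X ≤ N)
    (h : ∀ L ∈ Q.Comp (Reduced N), AltClasOdd p L ∨ Other 𝕜 p 2 L) : HQ 𝕜 p G := by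
  have hO2 := reduced_op' N hN hmax
  exact comp_mainS Nat.prime_two hO N hN hmax fun L hL hc =>
    AltClasOdd.facS hp2 hc (l2_dvd hO2 L hL) (h L hL)

end

end Vale.Agent.P240.R2.AC
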