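import Vale.Agent.P240.H195.BNSplit

/-!
Restriction of a split BN-pair to a normal subgroup that contains `U`.
-/

set_option autoImplicit false

namespace Vale.Agent.P240.R2.H296.BNres

open Subgroup Vale.Agent.P240.H195

section

variable {G : Type*} [Group G] {r : ℕ} {B N U : Subgroup G} {S : Set G}

/-- the representatives in `L` of the elements of `S`, modulo `B ∩ N` -/
def SR (B N : Subgroup G) (S : Set G) (L : Subgroup G) : Set L :=
  {s | ∃ s0 ∈ S, ∃ t ∈ B, t ∈ N ∧ (s : G) = s0 * t}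

/-- the factor in `B ∩ N` can be moved to the left -/
lemma dc_form (h : SB r B N U S) {n x : G} (hn : n ∈ N) (hd : DC B n x) :
    ∃ u ∈ U, ∃ t ∈ B, t ∈ N ∧ ∃ v ∈ U, x = u * t * n * v := by
  obtain ⟨a, ha, b, hb, rfl⟩ := hd
  obtain ⟨u, hu, t, ht, htN, rfl⟩ := h.split a ha
  obtain ⟨v, hv, t', ht', htN', rfl⟩ := h.split b hb
  refine ⟨u, hu, t * (n * t' * n⁻¹), mul_mem ht (h.norm n hn t' ht' htN'),
    mul_mem htN (mul_mem (mul_mem hn htN') (inv_mem hn)), t'⁻¹ * v * t'⁻¹⁻¹,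
    h.normal _ (inv_mem ht') v hv, ?_⟩
  group

variable {L : Subgroup G} [hL : L.Normal]

omit hL in
lemma dc_res (h : SB r B N U S) (hU : U ≤ L) {n x : L} (hn : (n : G) ∈ N)
    (hd : DC B (n : G) (x : G)) : DC (B.subgroupOf L) n x := by
  obtain ⟨u, hu, t, ht, htN, v, hv, e⟩ := dc_form h hn hd
  have htL : t ∈ L := by
    have e1 : t = u⁻¹ * x * v⁻¹ * (n : G)⁻¹ := by rw [e]; group
    rw [e1]
    exact mul_mem (mul_mem (mul_mem (inv_mem (hU hu)) x.2) (inv_mem (hU hv))) (inv_mem n.2)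
  exact ⟨⟨u * t, mul_mem (hU hu) htL⟩, mul_mem (h.le hu) ht, ⟨v, hU hv⟩, h.le hv, Subtype.ext e⟩

/-- every element of `S` has a representative in `L` -/
lemma exists_rep (h : SB r B N U S) (hU : U ≤ L) {s : G} (hs : s ∈ S) :
    ∃ t ∈ B, t ∈ N ∧ s * t ∈ L := by
  have hsN := h.sub s hs
  obtain ⟨b, hb, hb'⟩ := h.thick s hs
  obtain ⟨u, hu, t, ht, htN, rfl⟩ := h.split b hb
  have h1 : s⁻¹ * u * s ∉ B := by
    intro hc
    apply hb'
    have e : s⁻¹ * (u * t) * s = (s⁻¹ * u * s) * (s⁻¹ * t * s) := by group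
    rw [e]
    exact mul_mem hc (h.norm' hsN ht htN)
  have h2 : s⁻¹ * s⁻¹ * u ∈ B := mul_mem (h.inv_mul hs) (h.le hu)
  have e2 : s * (s⁻¹ * s⁻¹ * u) * s = s⁻¹ * u * s := by group
  rcases h.mul s hs _ h2 s hsN with h3 | h3
  · rw [e2] at h3
    obtain ⟨v, hv, t', ht', htN', w, hw, e⟩ := dc_form h hsN h3
    refine ⟨s⁻¹ * t' * s, h.norm' hsN ht' htN', mul_mem (mul_mem (inv_mem hsN) htN') hsN, ?_⟩
    have e3 : s * (s⁻¹ * t' * s) = v⁻¹ * (s⁻¹ * u * s) * w⁻¹ := by rw [e]; group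
    rw [e3]
    have h4 : s⁻¹ * u * s ∈ L := by
      have := hL.conj_mem u (hU hu) s⁻¹
      rwa [inv_inv] at this
    exact mul_mem (mul_mem (inv_mem (hU hv)) h4) (inv_mem (hU hw))
  · rw [e2, DC_mem (h.sq s hs)] at h3
    exact absurd h3 h1

/-- every element of `N` is a product of representatives and an element of `B ∩ N` -/
lemma exists_word (h : SB r B N U S) (hU : U ≤ L) {n : G} (hn : n ∈ N) :
    ∃ x ∈ closure (SR B N S L), ∃ t ∈ B, t ∈ N ∧ n = x * t := by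
  have hcl : ∀ x ∈ closure (SR B N S L), (x : G) ∈ N := by
    intro x hx
    induction hx using closure_induction with
    | mem x hx =>
      obtain ⟨s0, hs0, t, ht, htN, e⟩ := hx
      rw [e]
      exact mul_mem (h.sub s0 hs0) htN
    | one => exact one_mem _
    | mul x y _ _ hx hy => exact mul_mem hx hy
    | inv x _ hx => exact inv_mem hx
  let M : Subgroup G :=
    { carrier := {n | ∃ x ∈ closure (SR B N S L), ∃ t ∈ B, t ∈ N ∧ n = x * t}
      mul_mem' := by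
        rintro _ _ ⟨x, hx, t, ht, htN, rfl⟩ ⟨y, hy, t', ht', htN', rfl⟩
        refine ⟨x * y, mul_mem hx hy, (y : G)⁻¹ * t * y * t',
          mul_mem (h.norm' (hcl y hy) ht htN) ht',
          mul_mem (mul_mem (mul_mem (inv_mem (hcl y hy)) htN) (hcl y hy)) htN', ?_⟩
        rw [coe_mul]
        group
      one_mem' := ⟨1, one_mem _, 1, one_mem _, one_mem _, by simp⟩
      inv_mem' := by
        rintro _ ⟨x, hx, t, ht, htN, rfl⟩
        refine ⟨x⁻¹, inv_mem hx, x * t⁻¹ * (x : G)⁻¹,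
          h.norm x (hcl x hx) t⁻¹ (inv_mem ht) (inv_mem htN),
          mul_mem (mul_mem (hcl x hx) (inv_mem htN)) (inv_mem (hcl x hx)), ?_⟩
        rw [InvMemClass.coe_inv]
        group }
  have h1 : N ≤ M := by
    conv_lhs => rw [h.span]
    rw [sup_le_iff, closure_le]
    constructor
    · intro s hs
      obtain ⟨t, ht, htN, hst⟩ := exists_rep h hU hs
      refine ⟨⟨s * t, hst⟩, subset_closure ⟨s, hs, t, ht, htN, rfl⟩, t⁻¹, inv_mem ht, inv_mem htN, ?_⟩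
      show s = s * t * t⁻¹
      group
    · intro t ht
      refine ⟨1, one_mem _, t, ht.1, ht.2, ?_⟩
      simp
  exact h1 hn

/-- **Restriction** of a split BN-pair. -/
theorem sb_res (h : SB r B N U S) (hU : U ≤ L) :
    SB r (B.subgroupOf L) (N.subgroupOf L) (U.subgroupOf L) (SR B N S L) where
  norm := fun n hn t ht htN => h.norm n hn t ht htN
  sub := by
    rintro s ⟨s0, hs0, t, ht, htN, e⟩
    show (s : G) ∈ N
    rw [e]
    exact mul_mem (h.sub s0 hs0) htN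
  span := by
    apply le_antisymm
    · intro n hn
      obtain ⟨x, hx, t, ht, htN, e⟩ := exists_word h hU (n := (n : G)) hn
      have htL : t ∈ L := by
        have e1 : t = (x : G)⁻¹ * n := by rw [e]; group
        rw [e1]
        exact mul_mem (inv_mem x.2) n.2
      have e2 : n = x * ⟨t, htL⟩ := Subtype.ext e
      rw [e2]
      exact mul_mem (mem_sup_left hx) (mem_sup_right ⟨ht, htN⟩)
    · rw [sup_le_iff, closure_le]
      refine ⟨?_, inf_le_right⟩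
      rintro s ⟨s0, hs0, t, ht, htN, e⟩
      show (s : G) ∈ N
      rw [e]
      exact mul_mem (h.sub s0 hs0) htN
  sq := by
    rintro s ⟨s0, hs0, t, ht, htN, e⟩
    show (s : G) * s ∈ B
    have hsN := h.sub s0 hs0
    have e1 : (s : G) * s = (s0 * s0) * (s0⁻¹ * t * s0) * t := by rw [e]; group
    rw [e1]
    exact mul_mem (mul_mem (h.sq s0 hs0) (h.norm' hsN ht htN)) ht
  mul := by
    rintro s ⟨s0, hs0, t, ht, htN, e⟩ b hb n hn
    have hsN := h.sub s0 hs0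
    have e1 : ((s * b * n : L) : G) = s0 * (t * b) * n := by
      rw [coe_mul, coe_mul, e]
      group
    rcases h.mul s0 hs0 (t * b) (mul_mem ht hb) n hn with h1 | h1
    · left
      apply dc_res h hU hn
      rw [e1]
      exact h1
    · right
      have hsn : ((s * n : L) : G) ∈ N := by
        rw [coe_mul, e]
        exact mul_mem (mul_mem hsN htN) hn
      apply dc_res h hU hsn
      rw [e1]
      refine DC.trans (DC_of_inv ?_) h1
      have e2 : ((s * n : L) : G)⁻¹ * (s0 * n) = (n : G)⁻¹ * t⁻¹ * n := by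
        rw [coe_mul, e]
        group
      rw [e2]
      exact h.norm' hn (inv_mem ht) (inv_mem htN)
  thick := by
    rintro s ⟨s0, hs0, t, ht, htN, e⟩
    have hsN := h.sub s0 hs0
    obtain ⟨b, hb, hb'⟩ := h.thick s0 hs0
    obtain ⟨u, hu, t', ht', htN', rfl⟩ := h.split b hb
    refine ⟨⟨u, hU hu⟩, h.le hu, ?_⟩
    intro hc
    apply hb'
    have hc' : (s : G)⁻¹ * u * s ∈ B := hc
    have e1 : s0⁻¹ * (u * t') * s0 = t * ((s : G)⁻¹ * u * s) * t⁻¹ * (s0⁻¹ * t' * s0) := by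
      rw [e]
      group
    rw [e1]
    exact mul_mem (mul_mem (mul_mem ht hc') (inv_mem ht)) (h.norm' hsN ht' htN')
  gen := by
    rw [eq_top_iff]
    intro x _
    obtain ⟨n, hn, hd⟩ := h.toBN.bruhat (x : G)
    obtain ⟨u, hu, t, ht, htN, v, hv, e⟩ := dc_form h hn hd
    have hnL : t * n ∈ L := by
      have e1 : t * n = u⁻¹ * x * v⁻¹ := by rw [e]; group
      rw [e1]
      exact mul_mem (mul_mem (inv_mem (hU hu)) x.2) (inv_mem (hU hv))
    have e2 : x = ⟨u, hU hu⟩ * ⟨t * n, hnL⟩ * ⟨v, hU hv⟩ := by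
      apply Subtype.ext
      rw [e]
      show u * t * n * v = u * (t * n) * v
      group
    rw [e2]
    exact mul_mem (mul_mem (mem_sup_left (h.le hu)) (mem_sup_right (mul_mem htN hn)))
      (mem_sup_left (h.le hv))
  le := fun x hx => h.le hx
  pgroup := by
    intro x
    obtain ⟨k, hk⟩ := h.pgroup ⟨((x : L) : G), x.2⟩
    refine ⟨k, ?_⟩
    apply Subtype.ext
    apply Subtype.ext
    have h1 := congrArg Subtype.val hk
    rw [coe_pow, coe_pow]
    rw [coe_pow] at h1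
    exact h1
  normal := fun b hb u hu => h.normal b hb u hu
  split := by
    intro b hb
    obtain ⟨u, hu, t, ht, htN, e⟩ := h.split b hb
    have htL : t ∈ L := by
      have e1 : t = u⁻¹ * b := by rw [e]; group
      rw [e1]
      exact mul_mem (inv_mem (hU hu)) b.2
    exact ⟨⟨u, hU hu⟩, hu, ⟨t, htL⟩, ht, htN, Subtype.ext e⟩
  coprime := by
    intro hc
    apply h.coprime
    refine hc.trans ?_
    have e1 : B.subgroupOf L ⊓ N.subgroupOf L = (B ⊓ N).subgroupOf L := rfl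
    rw [e1]
    have h1 : Nat.card ((B ⊓ N).subgroupOf L) = Nat.card ((B ⊓ N ⊓ L : Subgroup G)) := by
      rw [← inf_subgroupOf_right]
      exact Nat.card_congr (subgroupOfEquivOfLe inf_le_right).toEquiv
    rw [h1]
    exact card_dvd_of_le inf_le_left
  strong := by
    rintro s ⟨s0, hs0, t, ht, htN, e⟩ x hx hsx u hu
    have h1 : s0 * (t * x * t⁻¹) * s0⁻¹ ∈ U := by
      have h2 : (s : G) * x * (s : G)⁻¹ ∈ U := hsx
      rw [e] at h2
      have e1 : s0 * (t * x * t⁻¹) * s0⁻¹ = s0 * t * x * (s0 * t)⁻¹ := by group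
      rw [e1]
      exact h2
    have h3 := h.strong s0 hs0 _ (h.normal t ht x hx) h1 _ (h.normal t ht u hu)
    show (s : G) * (u * x * (u : G)⁻¹) * (s : G)⁻¹ ∈ U
    rw [e]
    have e2 : s0 * t * (u * x * (u : G)⁻¹) * (s0 * t)⁻¹ =
        s0 * (t * u * t⁻¹ * (t * x * t⁻¹) * (t * u * t⁻¹)⁻¹) * s0⁻¹ := by group
    rw [e2]
    exact h3
  opp := by
    obtain ⟨n, hn, h1⟩ := h.opp
    obtain ⟨x, hx, t, ht, htN, e⟩ := exists_word h hU hn
    have hxN : (x : G) ∈ N := by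
      have e1 : (x : G) = n * t⁻¹ := by rw [e]; group
      rw [e1]
      exact mul_mem hn (inv_mem htN)
    refine ⟨x, hxN, fun y hy hy' => ?_⟩
    have h2 : (x : G) * y * (x : G)⁻¹ ∈ U := hy'
    have h3 := h1 (t⁻¹ * y * t⁻¹⁻¹) (h.normal _ (inv_mem ht) y hy) (by
      rw [e]
      have e1 : (x : G) * t * (t⁻¹ * y * t⁻¹⁻¹) * ((x : G) * t)⁻¹ = x * y * (x : G)⁻¹ := by group
      rw [e1]
      exact h2)
    apply Subtype.ext
    have e1 : (y : G) = t * (t⁻¹ * y * t⁻¹⁻¹) * t⁻¹ := by group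
    rw [e1, h3]
    show t * 1 * t⁻¹ = 1
    group
  nonempty := by
    obtain ⟨s, hs⟩ := h.nonempty
    obtain ⟨t, ht, htN, hst⟩ := exists_rep h hU hs
    exact ⟨⟨s * t, hst⟩, s, hs, t, ht, htN, rfl⟩

/-- **Restriction** of a split BN-pair with connected diagram. -/
theorem split_res (h : SplitBN r B N U S) (hU : U ≤ L) :
    SplitBN r (B.subgroupOf L) (N.subgroupOf L) (U.subgroupOf L) (SR B N S L) where
  toSB := sb_res h.toSB hU
  irr := by
    intro J hJ hne hne' hJB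
    let J0 : Set G := {s | s ∈ S ∧ ∃ t ∈ B, t ∈ N ∧ ∃ hst : s * t ∈ L, (⟨s * t, hst⟩ : L) ∈ J}
    have hsat : ∀ {s t t' : G}, s ∈ S → t ∈ B → t ∈ N → t' ∈ B → t' ∈ N → ∀ (hst : s * t ∈ L)
        (hst' : s * t' ∈ L), (⟨s * t, hst⟩ : L) ∈ J → (⟨s * t', hst'⟩ : L) ∈ J := by
      intro s t t' hs ht htN ht' htN' hst hst' hj
      by_contra hcon
      apply hJB _ hj ⟨s * t', hst'⟩ ⟨⟨s, hs, t', ht', htN', rfl⟩, hcon⟩
      show (s * t)⁻¹ * (s * t') ∈ B
      have e : (s * t)⁻¹ * (s * t') = t⁻¹ * t' := by group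
      rw [e]
      exact mul_mem (inv_mem ht) ht'
    have h1 : J0.Nonempty := by
      obtain ⟨x, hx⟩ := hne
      obtain ⟨s, hs, t, ht, htN, e⟩ := hJ hx
      have hst : s * t ∈ L := by rw [← e]; exact x.2
      refine ⟨s, hs, t, ht, htN, hst, ?_⟩
      have e1 : (⟨s * t, hst⟩ : L) = x := Subtype.ext e.symm
      rw [e1]
      exact hx
    have h2 : (S \ J0).Nonempty := by
      obtain ⟨x, ⟨s, hs, t, ht, htN, e⟩, hxJ⟩ := hne'
      have hst : s * t ∈ L := by rw [← e]; exact x.2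
      refine ⟨s, hs, ?_⟩
      rintro ⟨-, t', ht', htN', hst', hj⟩
      apply hxJ
      have e1 : x = ⟨s * t, hst⟩ := Subtype.ext e
      rw [e1]
      exact hsat hs ht' htN' ht htN hst' hst hj
    obtain ⟨a, ha, b, hb, hab⟩ := h.irr J0 (fun s hs => hs.1) h1 h2 (by
      rintro a ⟨ha, t, ht, htN, hat, haJ⟩ b ⟨hb, hbJ⟩ hc
      obtain ⟨t', ht', htN', hbt⟩ := exists_rep h.toSB hU hb
      apply hJB _ haJ ⟨b * t', hbt⟩ ⟨⟨b, hb, t', ht', htN', rfl⟩, fun hj =>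
        hbJ ⟨hb, t', ht', htN', hbt, hj⟩⟩
      show (a * t)⁻¹ * (b * t') ∈ B
      have e : (a * t)⁻¹ * (b * t') = t⁻¹ * (a⁻¹ * b) * t' := by group
      rw [e]
      exact mul_mem (mul_mem (inv_mem ht) hc) ht')
    obtain ⟨haS, t, ht, htN, hat, haJ⟩ := ha
    obtain ⟨t', ht', htN', hbt⟩ := exists_rep h.toSB hU hb.1
    have haN := h.sub a haS
    have hbN := h.sub b hb.1
    refine ⟨⟨a * t, hat⟩, haJ, ⟨b * t', hbt⟩, ⟨⟨b, hb.1, t', ht', htN', rfl⟩, fun hj =>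
      hb.2 ⟨hb.1, t', ht', htN', hbt, hj⟩⟩, ?_⟩
    intro hc
    apply hab
    have hc' : (b * t' * (a * t))⁻¹ * (a * t * (b * t')) ∈ B := hc
    have e : (b * a)⁻¹ * (a * b) = ((a⁻¹ * t' * a) * t) * ((b * t' * (a * t))⁻¹ *
        (a * t * (b * t'))) * ((b⁻¹ * t * b) * t')⁻¹ := by group
    rw [e]
    exact mul_mem (mul_mem (mul_mem (h.norm' haN ht' htN') ht) hc')
      (inv_mem (mul_mem (h.norm' hbN ht htN) ht'))

end

section map

variable {G H : Type*} [Group G] [Group H] {r : ℕ} {B N U : Subgroup G} {S : Set G} {π : G →* H}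

lemma mem_map_B {C : Subgroup G} (hk : π.ker ≤ C) {x : G} : π x ∈ C.map π ↔ x ∈ C := by
  constructor
  · rintro ⟨y, hy, e⟩
    have h1 : y⁻¹ * x ∈ π.ker := by
      rw [MonoidHom.mem_ker, map_mul, map_inv, e, inv_mul_cancel]
    have h2 := mul_mem hy (hk h1)
    rwa [mul_inv_cancel_left] at h2
  · exact fun hx => ⟨x, hx, rfl⟩

lemma dc_map (hk : π.ker ≤ B) {n x : G} : DC (B.map π) (π n) (π x) ↔ DC B n x := by
  constructor
  · rintro ⟨_, ⟨a, ha, rfl⟩, _, ⟨b, hb, rfl⟩, e⟩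
    rw [← map_mul, ← map_mul] at e
    refine ⟨a, ha, b * ((a * n * b)⁻¹ * x), mul_mem hb (hk ?_), by group⟩
    rw [MonoidHom.mem_ker, map_mul, map_inv, e, inv_mul_cancel]
  · rintro ⟨a, ha, b, hb, rfl⟩
    exact ⟨π a, ⟨a, ha, rfl⟩, π b, ⟨b, hb, rfl⟩, by rw [map_mul, map_mul]⟩

/-- **Image** of a split BN-pair. -/
theorem sb_map [Finite G] (hr : r.Prime) (h : SB r B N U S) (hπ : Function.Surjective π)
    (hk : π.ker ≤ B) (hkN : π.ker ≤ N) :
    SB r (B.map π) (N.map π) (U.map π) (π '' S) where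
  norm := by
    rintro _ ⟨n, hn, rfl⟩ _ ⟨t, ht, rfl⟩ htN
    have htN' := (mem_map_B hkN).1 htN
    exact ⟨n * t * n⁻¹, h.norm n hn t ht htN', by rw [map_mul, map_mul, map_inv]⟩
  sub := by
    rintro _ ⟨s, hs, rfl⟩
    exact ⟨s, h.sub s hs, rfl⟩
  span := by
    have h1 : B.map π ⊓ N.map π = (B ⊓ N).map π := by
      apply le_antisymm
      · rintro _ ⟨⟨x, hx, rfl⟩, hx'⟩
        exact ⟨x, ⟨hx, (mem_map_B hkN).1 hx'⟩, rfl⟩
      · rintro _ ⟨x, hx, rfl⟩
        exact ⟨⟨x, hx.1, rfl⟩, ⟨x, hx.2, rfl⟩⟩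
    rw [h1]
    conv_lhs => rw [h.span]
    rw [Subgroup.map_sup, MonoidHom.map_closure]
  sq := by
    rintro _ ⟨s, hs, rfl⟩
    exact ⟨s * s, h.sq s hs, by rw [map_mul]⟩
  mul := by
    rintro _ ⟨s, hs, rfl⟩ _ ⟨b, hb, rfl⟩ _ ⟨n, hn, rfl⟩
    rw [← map_mul, ← map_mul, ← map_mul, dc_map hk, dc_map hk]
    exact h.mul s hs b hb n hn
  thick := by
    rintro _ ⟨s, hs, rfl⟩
    obtain ⟨b, hb, hb'⟩ := h.thick s hs
    refine ⟨π b, ⟨b, hb, rfl⟩, ?_⟩
    rw [← map_inv, ← map_mul, ← map_mul, mem_map_B hk]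
    exact hb'
  gen := by
    rw [← Subgroup.map_sup, h.gen]
    exact map_top_of_surjective π hπ
  le := Subgroup.map_mono h.le
  pgroup := h.pgroup.map π
  normal := by
    rintro _ ⟨b, hb, rfl⟩ _ ⟨u, hu, rfl⟩
    exact ⟨b * u * b⁻¹, h.normal b hb u hu, by rw [map_mul, map_mul, map_inv]⟩
  split := by
    rintro _ ⟨b, hb, rfl⟩
    obtain ⟨u, hu, t, ht, htN, rfl⟩ := h.split b hb
    exact ⟨π u, ⟨u, hu, rfl⟩, π t, ⟨t, ht, rfl⟩, ⟨t, htN, rfl⟩, by rw [map_mul]⟩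
  coprime := by
    intro hc
    apply h.coprime
    have h1 : B.map π ⊓ N.map π = (B ⊓ N).map π := by
      apply le_antisymm
      · rintro _ ⟨⟨x, hx, rfl⟩, hx'⟩
        exact ⟨x, ⟨hx, (mem_map_B hkN).1 hx'⟩, rfl⟩
      · rintro _ ⟨x, hx, rfl⟩
        exact ⟨⟨x, hx.1, rfl⟩, ⟨x, hx.2, rfl⟩⟩
    rw [h1] at hc
    exact hc.trans (card_map_dvd (B ⊓ N) π)
  strong := by
    rintro _ ⟨s, hs, rfl⟩ _ ⟨x, hx, rfl⟩ hsx _ ⟨u, hu, rfl⟩
    rw [← map_inv, ← map_mul, ← map_mul] at hsx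
    have h1 : s * x * s⁻¹ ∈ B := (mem_map_B hk).1 (Subgroup.map_mono h.le hsx)
    have h2 := h.strong s hs x hx (h.conj_U hr hx h1) u hu
    exact ⟨_, h2, by simp only [map_mul, map_inv]⟩
  opp := by
    obtain ⟨n, hn, h1⟩ := h.opp
    refine ⟨π n, ⟨n, hn, rfl⟩, ?_⟩
    rintro _ ⟨x, hx, rfl⟩ hnx
    rw [← map_inv, ← map_mul, ← map_mul] at hnx
    have h2 : n * x * n⁻¹ ∈ B := (mem_map_B hk).1 (Subgroup.map_mono h.le hnx)
    rw [h1 x hx (h.conj_U hr hx h2), map_one]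
  nonempty := h.nonempty.image _

/-- **Image** of a split BN-pair with connected diagram. -/
theorem split_map [Finite G] (hr : r.Prime) (h : SplitBN r B N U S) (hπ : Function.Surjective π)
    (hk : π.ker ≤ B) (hkN : π.ker ≤ N) :
    SplitBN r (B.map π) (N.map π) (U.map π) (π '' S) where
  toSB := sb_map hr h.toSB hπ hk hkN
  irr := by
    intro J hJ hne hne' hJB
    obtain ⟨a, ⟨haS, haJ⟩, b, hb, hab⟩ := h.irr {s | s ∈ S ∧ π s ∈ J} (fun s hs => hs.1) (by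
        obtain ⟨x, hx⟩ := hne
        obtain ⟨s, hs, rfl⟩ := hJ hx
        exact ⟨s, hs, hx⟩) (by
        obtain ⟨x, ⟨s, hs, rfl⟩, hxJ⟩ := hne'
        exact ⟨s, hs, fun hc => hxJ hc.2⟩) (by
        rintro a ⟨ha, haJ⟩ b ⟨hb, hbJ⟩ hc
        apply hJB _ haJ (π b) ⟨⟨b, hb, rfl⟩, fun hj => hbJ ⟨hb, hj⟩⟩
        rw [← map_inv, ← map_mul]
        exact ⟨_, hc, rfl⟩)
    refine ⟨π a, haJ, π b, ⟨⟨b, hb.1, rfl⟩, fun hj => hb.2 ⟨hb.1, hj⟩⟩, ?_⟩
    rw [← map_mul, ← map_mul, ← map_inv, ← map_mul, mem_map_B hk]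
    exact hab

end map

end Vale.Agent.P240.R2.H296.BNres
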