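import Vale.Agent.P240.R2.H401.EDefs
import Vale.Agent.P240.R2.H275.EvA
import Vale.Agent.P240.R2.H401.NL5

/-!
Coordinates for `PΩ_n(q)`, `n` even, standard form: the first items of `StmtEC`.
-/

set_option autoImplicit false
set_option linter.all false

namespace Vale.Agent.P240.R2.H296.EC

open Matrix Vale.Agent.P240.R2.AS Vale.Agent.P240.R2.H38 Vale.Agent.P240.K
open Vale.Agent.P240.R2.H938 (TD TC mem_TD)
open Vale.Agent.P240.R2.H296.O (SOm)
open Vale.Agent.P240.R2.H401.E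
open Vale.Agent.P240.R2.H275 (SOm_gmap SOm_conj uniqE diag_mem_iff det_SOm diag_of5 dij prod_dij gu_diag dGU)
open scoped Classical

universe u v w

noncomputable section

section
variable {K : Type u} [Field K] [Fintype K] [StarRing K] {n : ℕ} {G : Type v} [Group G]

/-- a field automorphism on `SOm` -/
def frO (σ : K ≃+* K) (hσ : ∀ a, σ (star a) = star (σ a)) (h : SOm K n) : SOm K n :=
  ⟨gmap σ hσ h.1, SOm_gmap σ hσ h.2⟩

lemma mx_frO (σ : K ≃+* K) (hσ : ∀ a, σ (star a) = star (σ a)) (h : SOm K n) :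
    mx (frO σ hσ h) = (mx h).map σ := rfl

lemma map_refl_mat (A : Matrix (Fin n) (Fin n) K) : A.map (RingEquiv.refl K) = A := by ext i j; simp

omit [Fintype K] in
lemma cjO_cjO_inv (u : GU K n) (h : SOm K n) : cjO u (cjO u⁻¹ h) = h := by
  rw [← cjO_mul, mul_inv_cancel, cjO_one]

/-- uniqueness -/
lemma uniqO (hs : ∀ x : K, star x = x) (h2 : (2 : K) ≠ 0) (h6 : 5 < Fintype.card K) (hn : 5 ≤ n)
    {ε : SOm K n →* G}
    (hker : ∀ g : SOm K n, ε g = 1 ↔ ∃ a : K, mx g = a • (1 : Matrix (Fin n) (Fin n) K))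
    {x : G} {g h : GU K n} {σ τ : K ≃+* K} (hx : ActsS ε x g σ) (hy : ActsS ε x h τ) :
    σ = τ ∧ ∃ a : K, g.1 = a • h.1 := by
  have h1 : ∀ k : SOm K n, ∃ a : K,
      g.1 * (mx k).map σ * star g.1 = a • (h.1 * (mx k).map τ * star h.1) := by
    intro k
    have e1 := hx.2 k (cjO g (frO σ hx.1 k)) (by rw [mx_cjO, mx_frO])
    have e2 := hy.2 k (cjO h (frO τ hy.1 k)) (by rw [mx_cjO, mx_frO])
    rw [e1] at e2
    obtain ⟨a, ha⟩ := (eps_eq hker).1 e2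
    exact ⟨a, by rw [mx_cjO, mx_frO, mx_cjO, mx_frO] at ha; exact ha⟩
  have hτs : ∀ a, τ.symm (star a) = star (τ.symm a) := fun a => by rw [hs, hs]
  set ρ : K ≃+* K := τ.symm.trans σ with hρ
  have h3 : ∀ m : SOm K n, ∃ a : K,
      (h⁻¹ * g).1 * (mx m).map ρ * star (h⁻¹ * g).1 = a • mx m := by
    intro m
    obtain ⟨a, ha⟩ := h1 (frO τ.symm hτs m)
    refine ⟨a, ?_⟩
    rw [mx_frO] at ha
    have e1 : ((mx m).map τ.symm).map σ = (mx m).map ρ := by ext i j; simp [hρ]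
    have e2 : ((mx m).map τ.symm).map τ = mx m := by ext i j; simp
    rw [e1, e2] at ha
    rw [gu_mul, gu_inv, star_mul, star_star]
    calc star h.1 * g.1 * (mx m).map ρ * (star g.1 * h.1)
        = star h.1 * (g.1 * (mx m).map ρ * star g.1) * h.1 := by simp only [mul_assoc]
      _ = a • ((star h.1 * h.1) * mx m * (star h.1 * h.1)) := by
          rw [ha, mul_smul_comm, smul_mul_assoc]
          simp only [mul_assoc]
      _ = _ := by rw [star_gu, one_mul, mul_one]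
  obtain ⟨e1, a, ha⟩ := uniqE hs h2 h6 hn (h⁻¹ * g) ρ h3
  constructor
  · ext y
    have := e1 (τ y)
    simpa [hρ] using this
  · refine ⟨a, ?_⟩
    have e2 : g = h * (h⁻¹ * g) := by group
    calc g.1 = (h * (h⁻¹ * g)).1 := by rw [← e2]
      _ = h.1 * (h⁻¹ * g).1 := rfl
      _ = _ := by rw [ha, mul_smul_comm, mul_one]

/-- composition -/
lemma mulO {ε : SOm K n →* G} {x y : G} {g h : GU K n} {σ τ : K ≃+* K}
    (hx : ActsS ε x g σ) (hy : ActsS ε y h τ) :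
    ActsS ε (x * y) (g * gmap σ hx.1 h) (τ.trans σ) := by
  refine ⟨fun a => by simp [hx.1, hy.1], fun a b hab => ?_⟩
  have h1 := hy.2 a (cjO h (frO τ hy.1 a)) (by rw [mx_cjO, mx_frO])
  have h2 := hx.2 (cjO h (frO τ hy.1 a)) b (by
    rw [mx_cjO, mx_frO, hab, gu_mul, gmap_coe, map_mul_mat, map_mul_mat, map_star_mat hx.1, star_mul]
    have h3 : (mx a).map (τ.trans σ) = ((mx a).map τ).map σ := by
      ext i j; simp
    rw [h3]
    simp only [mul_assoc])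
  have h3 : x * y * ε a * (x * y)⁻¹ = x * (y * ε a * y⁻¹) * x⁻¹ := by group
  rw [h3, h1, h2]

/-- two elements with proportional matrices -/
lemma eq_conjO {ε : SOm K n →* G} {x y : G} {g h : GU K n} {σ : K ≃+* K} (hn : 0 < n)
    (hx : ActsS ε x g σ) (hy : ActsS ε y h σ) {a : K} (e : g.1 = a • h.1) (k : SOm K n) :
    x * ε k * x⁻¹ = y * ε k * y⁻¹ := by
  have h1 := hx.smul hn e
  rw [h1.2 k (cjO h (frO σ hx.1 k)) (by rw [mx_cjO, mx_frO]),
    hy.2 k (cjO h (frO σ hx.1 k)) (by rw [mx_cjO, mx_frO])]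

/-- an element that acts as an element of `SOm` -/
lemma mem_sup_ofO {L : Subgroup G} {ε : SOm K n →* G} (hr : ε.range = L) (hn : 0 < n) {x : G}
    {g : GU K n} (hx : ActsS ε x g (RingEquiv.refl K)) (s : SOm K n) {a : K} (e : g.1 = a • mx s) :
    x ∈ L ⊔ Subgroup.centralizer (L : Set G) := by
  have h1 := eq_conjO hn hx (ActsS.of_mem ε s) e
  have h2 : x * (ε s)⁻¹ ∈ Subgroup.centralizer (L : Set G) := by
    rw [Subgroup.mem_centralizer_iff]
    intro l hl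
    rw [SetLike.mem_coe, ← hr] at hl
    obtain ⟨m, rfl⟩ := hl
    have h7 := h1 (s⁻¹ * m * s)
    rw [map_mul, map_mul, map_inv] at h7
    have h8 : x * (ε s)⁻¹ * ε m * (x * (ε s)⁻¹)⁻¹ = ε m := by
      calc x * (ε s)⁻¹ * ε m * (x * (ε s)⁻¹)⁻¹ = x * ((ε s)⁻¹ * ε m * ε s) * x⁻¹ := by group
        _ = ε m := by rw [h7]; group
    rw [mul_inv_eq_iff_eq_mul] at h8
    exact h8.symm
  have h3 : x = (x * (ε s)⁻¹) * ε s := by group
  rw [h3]
  exact Subgroup.mul_mem _ (Subgroup.mem_sup_right h2)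
    (Subgroup.mem_sup_left (by rw [← hr]; exact ⟨s, rfl⟩))

/-- elements of `Qe` -/
lemma acts_of_Qe {ε : SOm K n →* G} {x : G} (hx : x ∈ Qe ε) :
    ∃ g : GU K n, ActsS ε x g (RingEquiv.refl K) := by
  obtain ⟨g, hg⟩ := hx
  refine ⟨g, fun _ => rfl, fun h h' e => ?_⟩
  have h1 : h' = cjO g h := by
    apply mx_inj
    rw [e, mx_cjO, map_refl_mat]
  rw [h1]
  exact hg h

lemma Qe_of_acts {ε : SOm K n →* G} {x : G} {g : GU K n} (hx : ActsS ε x g (RingEquiv.refl K)) :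
    x ∈ Qe ε := by
  refine ⟨g, fun h => hx.2 h (cjO g h) ?_⟩
  rw [mx_cjO, map_refl_mat]

lemma Qe_norm {L : Subgroup G} {ε : SOm K n →* G} (hr : ε.range = L) :
    Qe ε ≤ Subgroup.normalizer (L : Set G) := by
  rintro x ⟨g, hg⟩
  rw [Subgroup.mem_normalizer_iff]
  intro y
  rw [← hr]
  constructor
  · rintro ⟨h, rfl⟩
    exact ⟨cjO g h, (hg h).symm⟩
  · rintro ⟨h, hh⟩
    refine ⟨cjO g⁻¹ h, ?_⟩
    have h1 := hg (cjO g⁻¹ h)
    rw [cjO_cjO_inv, hh] at h1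
    have h2 : x * ε (cjO g⁻¹ h) = x * y := mul_right_cancel h1
    exact mul_left_cancel h2

omit [Fintype K] in
lemma cen_acts {L : Subgroup G} {ε : SOm K n →* G} (hr : ε.range = L) {x : G}
    (hx : x ∈ Subgroup.centralizer (L : Set G)) (k : SOm K n) : x * ε k * x⁻¹ = ε k := by
  have h4 := Subgroup.mem_centralizer_iff.1 hx (ε k) (by rw [SetLike.mem_coe, ← hr]; exact ⟨k, rfl⟩)
  rw [← h4]; group

lemma le_Qe {L : Subgroup G} {ε : SOm K n →* G} (hr : ε.range = L) :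
    L ⊔ Subgroup.centralizer (L : Set G) ≤ Qe ε := by
  rw [sup_le_iff]
  constructor
  · intro x hx
    rw [← hr] at hx
    obtain ⟨k, rfl⟩ := hx
    exact Qe_of_acts (ActsS.of_mem ε k)
  · intro x hx
    exact Qe_of_acts (ActsS.of_cen (cen_acts hr hx))

lemma infO (hs : ∀ x : K, star x = x) (h2 : (2 : K) ≠ 0) (h6 : 5 < Fintype.card K) (hn : 5 ≤ n)
    {L : Subgroup G} {ε : SOm K n →* G} (hr : ε.range = L)
    (hker : ∀ g : SOm K n, ε g = 1 ↔ ∃ a : K, mx g = a • (1 : Matrix (Fin n) (Fin n) K)) :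
    L ⊓ Subgroup.centralizer (L : Set G) = ⊥ := by
  rw [eq_bot_iff]
  rintro y ⟨h1, h3⟩
  rw [SetLike.mem_coe, ← hr] at h1
  obtain ⟨m, rfl⟩ := h1
  have h4 : ActsS ε (ε m) 1 (RingEquiv.refl K) := ActsS.of_cen (cen_acts hr h3)
  obtain ⟨-, a, ha⟩ := uniqO hs h2 h6 hn hker (ActsS.of_mem ε m) h4
  rw [Subgroup.mem_bot]
  exact (hker m).2 ⟨a, ha⟩

lemma two_sq (hs : ∀ x : K, star x = x) {g : GU K n} {d : Fin n → K} (hg : g.1 = diagonal d) (i : Fin n) :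
    d i ^ 2 = 1 := by
  have h1 := gu_diag hg i
  rw [hs] at h1
  rw [pow_two]
  exact h1

lemma m1_ne (h2 : (2 : K) ≠ 0) : (-1 : K) ≠ 1 := by
  intro h
  apply h2
  linear_combination -h

/-- the elements `diag(-1 at i, -1 at j)` of `TD` -/
lemma exists_dij (hs : ∀ x : K, star x = x) (h2 : (2 : K) ≠ 0) (hne : Even n) {i j : Fin n}
    (hij : i ≠ j) : ∃ D : SOm K n, D ∈ TD K 2 (SOm K n) ∧ mx D = diagonal (dij (-1 : K) i j) := by
  have hsq : ∀ k, dij (-1 : K) i j k * star (dij (-1 : K) i j k) = 1 := by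
    intro k
    rw [hs]
    unfold dij
    split_ifs
    · ring
    · rw [inv_neg_one]; ring
    · ring
  have h1 : dGU (dij (-1 : K) i j) hsq ∈ SOm K n :=
    (diag_mem_iff hs h2 hne (d := dij (-1 : K) i j) rfl).2
      (prod_dij (neg_ne_zero.2 one_ne_zero) hij)
  refine ⟨⟨_, h1⟩, ⟨dij (-1 : K) i j, fun k => ?_, rfl⟩, rfl⟩
  have h3 := hsq k
  rw [hs] at h3
  rw [pow_two]
  exact h3

/-- an element that commutes with the group `Ae ε 1` acts as a diagonal matrix -/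
lemma diag_of_comm (hs : ∀ x : K, star x = x) (h2 : (2 : K) ≠ 0) (hne : Even n) (hn : 5 ≤ n)
    {ε : SOm K n →* G}
    (hker : ∀ g : SOm K n, ε g = 1 ↔ ∃ a : K, mx g = a • (1 : Matrix (Fin n) (Fin n) K)) {x : G}
    {g : GU K n} {σ : K ≃+* K} (hx : ActsS ε x g σ) (hc : ∀ y ∈ Ae ε 1, x * y = y * x) :
    ∃ d : Fin n → K, g.1 = diagonal d := by
  refine (diag_of5 hn (m1_ne h2) g σ fun i j hij => ?_).2
  obtain ⟨D, hD, hD'⟩ := exists_dij hs h2 hne hij
  have e1 := hx.2 D (cjO g (frO σ hx.1 D)) (by rw [mx_cjO, mx_frO])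
  have e2 : x * ε D = ε D * x := hc _ ⟨D, hD, by
    show ε (cjO 1 D) = ε D
    rw [cjO_one]⟩
  rw [e2, mul_inv_cancel_right] at e1
  obtain ⟨a, ha⟩ := (eps_eq hker).1 e1.symm
  refine ⟨a, ?_⟩
  rw [mx_cjO, mx_frO, hD'] at ha
  exact ha

omit [Fintype K] in
lemma Ae_comp (ε : SOm K n →* G) (u u' : GU K n) : Ae (ε.comp (cjO u)) u' = Ae ε (u * u') := by
  have e : (ε.comp (cjO u)).comp (cjO u') = ε.comp (cjO (u * u')) := by
    ext h
    show ε (cjO u (cjO u' h)) = ε (cjO (u * u') h)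
    rw [cjO_mul]
  rw [Ae, Ae, e]

omit [Fintype K] in
lemma Qe_comp (ε : SOm K n →* G) (u : GU K n) : Qe (ε.comp (cjO u)) = Qe ε := by
  ext x
  rw [mem_Qe, mem_Qe]
  constructor
  · rintro ⟨g, hg⟩
    refine ⟨u * g * u⁻¹, fun h => ?_⟩
    have h1 := hg (cjO u⁻¹ h)
    have h3 : (ε.comp (cjO u)) (cjO u⁻¹ h) = ε h := by
      show ε (cjO u (cjO u⁻¹ h)) = ε h
      rw [cjO_cjO_inv]
    rw [h3] at h1
    rw [h1]
    show ε (cjO u (cjO g (cjO u⁻¹ h))) = _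
    rw [← cjO_mul, ← cjO_mul]
  · rintro ⟨g, hg⟩
    refine ⟨u⁻¹ * g * u, fun h => ?_⟩
    show x * ε (cjO u h) * x⁻¹ = ε (cjO u (cjO (u⁻¹ * g * u) h))
    rw [hg, ← cjO_mul, ← cjO_mul]
    congr 3
    group

/-- change of coordinates for `ActsS` -/
lemma tw_acts {ε : SOm K n →* G} {x : G} {g : GU K n} {σ : K ≃+* K}
    (h : ActsS ε x g σ) (u : GU K n) :
    ActsS (ε.comp (cjO u)) x (u⁻¹ * g * gmap σ h.1 u) σ := by
  refine ⟨h.1, fun a b hab => ?_⟩
  refine h.2 (cjO u a) (cjO u b) ?_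
  rw [mx_cjO, mx_cjO, hab, gu_mul, gu_mul, gu_inv, gmap_coe, map_mul_mat, map_mul_mat, map_star_mat h.1,
    star_mul, star_mul, star_star]
  calc u.1 * (star u.1 * g.1 * u.1.map σ * (mx a).map σ * (star (u.1.map σ) * (star g.1 * u.1))) * star u.1
      = (u.1 * star u.1) * g.1 * u.1.map σ * (mx a).map σ * star (u.1.map σ) * star g.1 * (u.1 * star u.1) := by
        simp only [mul_assoc]
    _ = _ := by
        rw [gu_star, one_mul, mul_one]
        simp only [mul_assoc]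

lemma EHom_comp {L : Subgroup G} {ε : SOm K n →* G} (h : EHom L ε) (u : GU K n) :
    EHom L (ε.comp (cjO u)) := by
  refine ⟨?_, fun g => ?_, fun u' x hx hxp hc => ?_⟩
  · rw [← h.range]
    ext y
    constructor
    · rintro ⟨g, rfl⟩
      exact ⟨cjO u g, rfl⟩
    · rintro ⟨g, rfl⟩
      refine ⟨cjO u⁻¹ g, ?_⟩
      show ε (cjO u (cjO u⁻¹ g)) = ε g
      rw [cjO_cjO_inv]
  · rw [MonoidHom.comp_apply, h.ker]
    constructor
    · rintro ⟨a, ha⟩
      rw [mx_cjO, ← conj_smul_one u] at ha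
      exact ⟨a, conj_inj u ha⟩
    · rintro ⟨a, ha⟩
      exact ⟨a, by rw [mx_cjO, ha, conj_smul_one]⟩
  · obtain ⟨g, σ, hg⟩ := h.sem (u * u') x hx hxp (by rw [← Ae_comp]; exact hc)
    exact ⟨_, _, tw_acts hg u⟩

/-- the elements of order `2` of `L` that commute with `Ae` -/
lemma hC_O (hs : ∀ x : K, star x = x) (h2 : (2 : K) ≠ 0) (hne : Even n) (hn : 5 ≤ n)
    {L : Subgroup G} {ε : SOm K n →* G} (hε : EHom L ε) {l : G} (hl : l ∈ L)
    (hlc : ∀ y ∈ Ae ε 1, l * y = y * l) : l ∈ Ae ε 1 := by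
  rw [← hε.range] at hl
  obtain ⟨m, rfl⟩ := hl
  obtain ⟨d, hd⟩ := diag_of_comm hs h2 hne hn hε.ker (ActsS.of_mem ε m) hlc
  refine ⟨m, ⟨d, fun i => two_sq hs hd i, hd⟩, ?_⟩
  show ε (cjO 1 m) = ε m
  rw [cjO_one]

/-- hF1 -/
lemma hF1_O (hs : ∀ x : K, star x = x) (h2 : (2 : K) ≠ 0) (hne : Even n) (hn : 5 ≤ n)
    {L : Subgroup G} {ε : SOm K n →* G} (hε : EHom L ε) {e x : G} (he : e ∈ Qe ε) (hx : x ∈ Qe ε)
    (hec : ∀ a ∈ Ae ε 1, e * a = a * e) (hxc : ∀ a ∈ Ae ε 1, x * a = a * x)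
    (heL : e ∉ L ⊔ Subgroup.centralizer (L : Set G)) :
    ∃ k : ℕ, x * e ^ k ∈ L ⊔ Subgroup.centralizer (L : Set G) := by
  obtain ⟨g, hg⟩ := acts_of_Qe he
  obtain ⟨h, hh⟩ := acts_of_Qe hx
  obtain ⟨d, hd⟩ := diag_of_comm hs h2 hne hn hε.ker hg hec
  obtain ⟨c, hc⟩ := diag_of_comm hs h2 hne hn hε.ker hh hxc
  have hpm : ∀ {b : Fin n → K}, (∀ i, b i ^ 2 = 1) → ∏ i, b i = 1 ∨ ∏ i, b i = -1 := by
    intro b hb
    apply mul_self_eq_one_iff.1
    rw [← pow_two, ← Finset.prod_pow]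
    exact Finset.prod_eq_one fun i _ => hb i
  have hd' : ∏ i, d i = -1 := by
    refine (hpm (fun i => two_sq hs hd i)).resolve_left fun h1 => heL ?_
    refine mem_sup_ofO hε.range (by omega) hg ⟨g, (diag_mem_iff hs h2 hne hd).2 h1⟩ (a := 1) ?_
    rw [one_smul]
    rfl
  rcases hpm (fun i => two_sq hs hc i) with h1 | h1
  · refine ⟨0, ?_⟩
    rw [pow_zero, mul_one]
    refine mem_sup_ofO hε.range (by omega) hh ⟨h, (diag_mem_iff hs h2 hne hc).2 h1⟩ (a := 1) ?_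
    rw [one_smul]
    rfl
  · refine ⟨1, ?_⟩
    rw [pow_one]
    have h3 := mulO hh hg
    have e1 : (RingEquiv.refl K).trans (RingEquiv.refl K) = RingEquiv.refl K := rfl
    rw [e1] at h3
    have e2 : (h * gmap (RingEquiv.refl K) hh.1 g).1 = diagonal (fun i => c i * d i) := by
      rw [gu_mul, gmap_coe, map_refl_mat, hc, hd, diagonal_mul_diagonal]
    have e3 : ∏ i, (c i * d i) = 1 := by
      rw [Finset.prod_mul_distrib, h1, hd']
      ring
    refine mem_sup_ofO hε.range (by omega) h3 ⟨_, (diag_mem_iff hs h2 hne e2).2 e3⟩ (a := 1) ?_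
    rw [one_smul]
    rfl

end

end

end Vale.Agent.P240.R2.H296.EC
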