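import Vale.Agent.P240.R2.H945.U4e
import Vale.Agent.P240.R2.H472.AutPSU
import Vale.Agent.P240.R2.H703.QF4
import Vale.Agent.P240.R2.H63.OddV

/-!
The group `PΩ` of a quadratic form in dimension six and minus type at an odd prime.
-/

set_option autoImplicit false
set_option linter.all false

namespace Vale.Agent.P240.R2.OF

open Matrix Subgroup Vale.Agent.P240.R2.AS Vale.Agent.P240.R2.H63.Odd
open Vale.Agent.P240.R2.H945.U4

universe u v

section det

variable {F : Type u} [Field F] [Fintype F] {m : ℕ}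

/-- forms whose discriminants agree up to squares have isomorphic groups `PΩ` -/
theorem pom_of_det (h2 : (2 : F) ≠ 0) {A A' : Matrix (Fin (m + 1)) (Fin (m + 1)) F}
    (hA : Aᵀ = A) (hA' : A'ᵀ = A') (h0 : A.det ≠ 0) (h0' : A'.det ≠ 0)
    (hs : IsSquare (A.det * A'.det)) : Nonempty (POm A ≃* POm A') := by
  obtain ⟨D, hD, P, hP⟩ := exists_normal h2 hA h0
  obtain ⟨D', hD', P', hP'⟩ := exists_normal h2 hA' h0'
  obtain ⟨s, hs⟩ := hs
  have d1 : P.1.det * A.det * P.1.det = D := by
    rw [← dl_det (m := m) D, ← hP, det_mul, det_mul, det_transpose]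
  have d2 : P'.1.det * A'.det * P'.1.det = D' := by
    rw [← dl_det (m := m) D', ← hP', det_mul, det_mul, det_transpose]
  have hDD : D * D' = (s * P.1.det * P'.1.det) * (s * P.1.det * P'.1.det) := by
    rw [← d1, ← d2]
    linear_combination (P.1.det ^ 2 * P'.1.det ^ 2) * hs
  have hne : s * P.1.det * P'.1.det ≠ 0 := by
    intro h
    rw [h, zero_mul] at hDD
    exact mul_ne_zero hD hD' hDD
  obtain ⟨Q, hQ⟩ := normal_sq h2 hP hD hD' (div_ne_zero hne hD') (by
    have h3 : (s * P.1.det * P'.1.det / D') * (s * P.1.det * P'.1.det / D') * D' =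
        ((s * P.1.det * P'.1.det) * (s * P.1.det * P'.1.det)) / D' := by
      field_simp
    rw [h3, ← hDD, mul_div_cancel_right₀ _ hD'])
  obtain ⟨f⟩ := nonempty_POm (A := A) (B := dl m D') (P := Q) (c := 1) one_ne_zero
    (by rw [one_smul]; exact hQ)
  obtain ⟨f'⟩ := nonempty_POm (A := A') (B := dl m D') (P := P') (c := 1) one_ne_zero
    (by rw [one_smul]; exact hP')
  exact ⟨f.trans f'.symm⟩

end det

section psu

variable {K : Type} [Field K] [Fintype K] [StarRing K] {q : ℕ}

/-- `PSU_n(q)` is perfect, `q ≥ 4` -/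
theorem psu_perfect (hq : 4 ≤ q) (hK : Nat.card K = q ^ 2) (hs : ∀ x : K, star x = x ^ q) (n : ℕ) :
    commutator (PSU K n) = ⊤ := by
  have hi := H472.th_iv (K := K) (q := q) (by omega) hK hs
  have h1 : commutator (Vale.Agent.P180.R2.H589.Un.SUG (H472.hh K n)) = ⊤ :=
    Vale.Agent.P180.R2.H589.Un.SUG_perfect' hi (by
      have h1 := Vale.Agent.P180.R2.H589.Un.card_sq hi
      rw [hK] at h1
      have h3 : q = Nat.card (Vale.Agent.P180.R2.H589.Un.FF (H472.th K)) :=
        Nat.pow_left_injective (by norm_num : 2 ≠ 0) h1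
      omega) H472.hh_hm
  have h3 : (commutator (Vale.Agent.P180.R2.H589.Un.SUG (H472.hh K n))).map
      (H472.toPSU : _ →* PSU K n) = commutator (PSU K n) := by
    rw [commutator_def, commutator_def, Subgroup.map_commutator,
      Subgroup.map_top_of_surjective _ H472.toPSU_surj]
  rw [← h3, h1]
  exact Subgroup.map_top_of_surjective _ H472.toPSU_surj

variable {F : Type} [Field F] [Algebra F K] {η : K} {δ : F}

open Vale.Agent.P240.R2.H145.EO (OD Big) in
/-- `PSU_4 ≃ PΩ` of the form `<1, -δ, 1, -δ, 1, -δ>` -/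
theorem psu4_iso' (hD : Dt η δ) (hP : commutator (AS.PSU K 4) = ⊤) :
    Nonempty (AS.PSU K 4 ≃* POm (diagonal (dd δ))) := by
  have h2 := hD.two
  have h2F : (2 : F) ≠ 0 := by
    intro h
    apply h2
    have := congrArg (algebraMap F K) h
    rwa [map_ofNat, map_zero] at this
  have hδ0 : δ ≠ 0 := by
    rintro rfl
    have h := hD.sq
    rw [map_zero] at h
    exact mul_ne_zero hD.eta0 hD.eta0 h.symm
  have hδ1 : (1 : F) - δ ≠ 0 := by
    intro h
    have h3 : δ = 1 := (sub_eq_zero.1 h).symm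
    have h4 := hD.sq
    rw [h3, map_one] at h4
    have h5 : (η - 1) * (η + 1) = 0 := by linear_combination -h4
    have h6 : star η = η := by
      rcases mul_eq_zero.1 h5 with h | h
      · rw [sub_eq_zero.1 h, star_one]
      · rw [eq_neg_of_add_eq_zero_left h, star_neg, star_one]
    have h7 : 2 * η = 0 := by
      have := hD.eta
      rw [h6] at this
      linear_combination this
    exact mul_ne_zero h2 hD.eta0 h7
  have hval : ∀ i, dd δ i = 1 ∨ dd δ i = -δ := by
    intro i
    fin_cases i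
    · exact Or.inl rfl
    · exact Or.inr rfl
    · exact Or.inl rfl
    · exact Or.inr rfl
    · exact Or.inl rfl
    · exact Or.inr rfl
  have ha : ∀ i, dd δ i ≠ 0 := by
    intro i
    rcases hval i with h | h
    · rw [h]; exact one_ne_zero
    · rw [h]; exact neg_ne_zero.2 hδ0
  have ha2 : ∀ i j, dd δ i + dd δ j ≠ 0 := by
    intro i j
    rcases hval i with h | h <;> rcases hval j with h' | h' <;> rw [h, h']
    · rw [one_add_one_eq_two]; exact h2F
    · rw [← sub_eq_add_neg]; exact hδ1
    · rw [add_comm, ← sub_eq_add_neg]; exact hδ1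
    · have : -δ + -δ = 2 * -δ := by ring
      rw [this]; exact mul_ne_zero h2F (neg_ne_zero.2 hδ0)
  let ρ : H38.SU K 4 →* ↥(OD (dd δ)) := hD.rho.codRestrict (OD (dd δ)) hD.rho_mem
  have hm1 : (-1 : K) ≠ 1 := by
    intro h3
    apply h2
    linear_combination -h3
  obtain ⟨f⟩ := abs_iso ρ (toP K 4) (toP_surj 4) (fun g => by
    rw [toP_eq_one, H296.mem_center_iff hm1 (by rw [star_neg, star_one]; ring),
      mem_center h2F 0 ha ha2]
    exact (hD.rho_scal g).symm) hP (fun x y => by
      obtain ⟨g, hg⟩ := comm_mem h2F ha hD.big x.2 y.2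
      exact ⟨g, Subtype.ext hg⟩)
  obtain ⟨f'⟩ := congr_comm (OD_eq_OA (dd δ))
  exact ⟨f.trans f'⟩

end psu

section field

/-- the quadratic extension with its unitary structure -/
theorem exists_unitary {F : Type} [Field F] [Finite F] (h2 : (2 : F) ≠ 0) {δ : F}
    (hδ : ¬ IsSquare δ) : ∃ (K : Type) (_ : Field K) (_ : Fintype K) (_ : StarRing K)
      (_ : Algebra F K) (η : K), Dt η δ ∧ Nat.card K = Nat.card F ^ 2 ∧
        ∀ x : K, star x = x ^ Nat.card F := by
  have : Fintype F := Fintype.ofFinite F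
  have h4 : (4 : F) ≠ 0 := by
    have : (4 : F) = 2 * 2 := by norm_num
    rw [this]
    exact mul_ne_zero h2 h2
  obtain ⟨K, i1, i2, i3, σ, θ, hinv, hfix, hF, hadd, hmul, hne, -⟩ :=
    H703.exists_BC (F := F) (c := (1 - δ) / 4) (fun t ht => hδ ⟨2 * t + 1, by
      have h5 : 4 * (t ^ 2 + t + (1 - δ) / 4) = 0 := by rw [ht, mul_zero]
      have h6 : 4 * ((1 - δ) / 4) = 1 - δ := by field_simp
      linear_combination h6 - h5⟩)
  have hf : Fintype K := Fintype.ofFinite K
  let iS : StarRing K :=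
    { star := σ
      star_involutive := hinv
      star_mul := fun a b => by rw [map_mul, mul_comm]
      star_add := map_add σ }
  have hst : ∀ x : K, star x = σ x := fun _ => rfl
  have hsq : algebraMap F K δ = (θ - σ θ) * (θ - σ θ) := by
    have h6 : 4 * algebraMap F K ((1 - δ) / 4) = 1 - algebraMap F K δ := by
      have h7 : (4 : F) * ((1 - δ) / 4) = 1 - δ := by field_simp
      have h8 := congrArg (algebraMap F K) h7
      rwa [map_mul, map_ofNat, map_sub, map_one] at h8
    linear_combination h6 + 4 * hmul - (θ + σ θ + 1) * hadd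
  have hD : Dt (θ - σ θ) δ := by
    refine ⟨fun x => hF x, hfix, ?_, ?_, ?_, hsq⟩
    · rw [hst, map_sub, hinv]; ring
    · exact sub_ne_zero.2 (Ne.symm hne)
    · intro h
      apply h2
      apply (algebraMap F K).injective
      rw [map_ofNat, map_zero, h]
  have hcard : Nat.card K = Nat.card F ^ 2 := by
    have hb : Function.Bijective
        (fun x : F × F => algebraMap F K x.1 + algebraMap F K x.2 * (θ - σ θ)) := by
      constructor
      · rintro ⟨a, b⟩ ⟨a', b'⟩ h
        have h1 : algebraMap F K (a - a') + algebraMap F K (b - b') * (θ - σ θ) = 0 := by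
          rw [map_sub, map_sub]
          have h3 : algebraMap F K a + algebraMap F K b * (θ - σ θ) =
            algebraMap F K a' + algebraMap F K b' * (θ - σ θ) := h
          linear_combination h3
        obtain ⟨h3, h5⟩ := hD.pair h1
        rw [sub_eq_zero.1 h3, sub_eq_zero.1 h5]
      · intro z
        obtain ⟨a, b, h⟩ := hD.exists_pair z
        exact ⟨(a, b), h⟩
    rw [← Nat.card_congr (Equiv.ofBijective _ hb), Nat.card_prod, pow_two]
  refine ⟨K, i1, hf, iS, i3, θ - σ θ, hD, hcard, fun x => ?_⟩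
  obtain ⟨a, b, rfl⟩ := hD.exists_pair x
  have hodd : Fintype.card F % 2 = 1 := by
    apply FiniteField.odd_card_of_char_ne_two
    intro h
    apply h2
    have h3 := ringChar.Nat.cast_ringChar (R := F)
    rw [h] at h3
    exact_mod_cast h3
  have hch : ringChar F ≠ 2 := by
    intro h
    apply h2
    have h3 := ringChar.Nat.cast_ringChar (R := F)
    rw [h] at h3
    exact_mod_cast h3
  have hδ0 : δ ≠ 0 := by
    rintro rfl
    exact hδ ⟨0, by ring⟩
  have hpow : δ ^ (Fintype.card F / 2) = -1 :=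
    (FiniteField.pow_dichotomy hch hδ0).resolve_left fun h =>
      hδ ((FiniteField.isSquare_iff hch hδ0).2 h)
  have hη : (θ - σ θ) ^ Fintype.card F = -(θ - σ θ) := by
    have h1 : Fintype.card F = 2 * (Fintype.card F / 2) + 1 := by omega
    rw [h1, pow_succ, pow_mul, pow_two, ← hsq, ← map_pow, hpow, map_neg, map_one]
    ring
  have hfr : ∀ y : K, y ^ Fintype.card F = FiniteField.frobeniusAlgHom F K y := fun y => by
    rw [FiniteField.coe_frobeniusAlgHom]
  rw [Nat.card_eq_fintype_card, hfr, map_add, map_mul, AlgHom.commutes, AlgHom.commutes, ← hfr, hη,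
    star_add, star_mul', hD.fix, hD.fix, hD.eta]

end field

/-- **dimension six, minus type, `q ≥ 4` odd** -/
theorem cov_six_minus {L : Type u} [Group L] {F : Type} [Field F] [Finite F] {p : ℕ}
    [hp : Fact p.Prime] (hp2 : p ≠ 2) (hs : IsSimpleGroup L) (hnab : ∃ x y : L, x * y ≠ y * x)
    (hd : p ∣ Nat.card L) (h2 : (2 : F) ≠ 0) (h4 : 4 ≤ Nat.card F)
    {A : Matrix (Fin 6) (Fin 6) F} (hA : Aᵀ = A) (hA0 : A.det ≠ 0) (hm : ¬ IsSquare (-A.det))
    (e : L ≃* POm A) (𝕜 : Type v) [Field 𝕜] : Cov 𝕜 p L := by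
  have : Fintype F := Fintype.ofFinite F
  obtain ⟨K, i1, i2, i3, i4, η, hD, hK, hst⟩ := exists_unitary h2 hm
  obtain ⟨f⟩ := psu4_iso' hD (psu_perfect h4 hK hst 4)
  have h0 : (diagonal (dd (-A.det))).det ≠ 0 := by
    rw [dd_det]
    exact neg_ne_zero.2 (pow_ne_zero _ (neg_ne_zero.2 hA0))
  obtain ⟨g⟩ := pom_of_det (m := 5) h2 hA (diagonal_transpose (dd (-A.det))) hA0 h0
    ⟨A.det ^ 2, by rw [dd_det]; ring⟩
  exact cov_psu_all hp2 hK hst (by norm_num) hnab hd ((e.trans g).trans f.symm) 𝕜

end Vale.Agent.P240.R2.OF
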