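import Vale.Agent.P240.R2.H296.N6a
import Vale.Agent.P240.R2.H296.OQOdd
import Vale.Agent.P240.R2.H63.P4c

/-!
The groups `PΩ(Q)` in dimension six at an odd prime.
-/

set_option autoImplicit false
set_option linter.all false

namespace Vale.Agent.P240.R2.OF

open Matrix Subgroup Vale.Agent.P240.K Vale.Agent.P240.H195 Vale.Agent.P240.R2.AS
open Vale.Agent.P240.R2.H487 Vale.Agent.P240.R2.H63.Odd
open Vale.Agent.P240.R2.H945.U4
open Vale.Agent.P240.R2.H432.Q (OQ POQ)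

universe u v

/-- **dimension six, plus type, `q` odd** -/
theorem cov_six_plus {L : Type u} [Group L] {F : Type} [Field F] [Finite F] {p : ℕ}
    (hp2 : p ≠ 2) (h2 : (2 : F) ≠ 0)
    {A : Matrix (Fin 6) (Fin 6) F} (hA : Aᵀ = A) (hA0 : A.det ≠ 0) (hm : IsSquare (-A.det))
    (e : L ≃* POm A) (𝕜 : Type v) [Field 𝕜] : Cov 𝕜 p L := by
  have : Fintype F := Fintype.ofFinite F
  obtain ⟨f⟩ := H63.P4.psl4_iso h2
  obtain ⟨g⟩ := pom_of_det (m := 5) h2 hA (diagonal_transpose (dd (1 : F))) hA0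
    (by
      rw [dd_det, one_pow]
      exact neg_ne_zero.2 one_ne_zero) (by
      rw [dd_det, one_pow, mul_neg, mul_one]
      exact hm)
  obtain ⟨r, hrc⟩ := CharP.exists F
  have hr : r.Prime := (CharP.char_is_prime_or_zero F r).resolve_right
    (CharP.char_ne_zero_of_finite F r)
  exact Or.inr (Or.inr (Or.inr (Or.inr (Or.inr ⟨hp2, r, hr, 4, F, inferInstance, inferInstance,
    by norm_num, Or.inl (by norm_num), hrc, ⟨(e.trans g).trans f.symm⟩⟩))))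

/-- **dimension six, `q ≥ 4` odd** -/
theorem cov_six {L : Type u} [Group L] {F : Type} [Field F] [Finite F] {p : ℕ}
    [hp : Fact p.Prime] (hp2 : p ≠ 2) (hs : IsSimpleGroup L) (hnab : ∃ x y : L, x * y ≠ y * x)
    (hd : p ∣ Nat.card L) (h2 : (2 : F) ≠ 0) (h4 : 4 ≤ Nat.card F)
    {A : Matrix (Fin 6) (Fin 6) F} (hA : Aᵀ = A) (hA0 : A.det ≠ 0)
    (e : L ≃* POm A) (𝕜 : Type v) [Field 𝕜] : Cov 𝕜 p L := by
  by_cases h : IsSquare (-A.det)
  · exact cov_six_plus hp2 h2 hA hA0 h e 𝕜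
  · exact cov_six_minus hp2 hs hnab hd h2 h4 hA hA0 h e 𝕜

/-- **dimension six, quadratic forms, `|F| ≥ 4`, every characteristic** -/
theorem cov_POQ_six {L : Type u} [Group L] {F : Type} [Field F] [Finite F] {p : ℕ}
    [hp : Fact p.Prime] (hp2 : p ≠ 2) (hs : IsSimpleGroup L) (hnab : ∃ x y : L, x * y ≠ y * x)
    (hd : p ∣ Nat.card L) (h4 : 4 ≤ Nat.card F) {Q : QuadraticForm F (Fin 6 → F)}
    (hQ : ∀ v, (∀ w, QuadraticMap.polar Q v w = 0) → v = 0) (e : L ≃* POQ Q)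
    (𝕜 : Type v) [Field 𝕜] : Cov 𝕜 p L := by
  by_cases h1 : (2 : F) = 0
  · exact cov_POQ hp2 hs hnab (by norm_num) hQ (Or.inr h1) e 𝕜
  obtain ⟨A, hA, hA0, ⟨f⟩⟩ := H432.Q.poq_pom h1 Q hQ
  exact cov_six hp2 hs hnab hd h1 h4 hA hA0 (e.trans f) 𝕜

end Vale.Agent.P240.R2.OF
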