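import Vale.Agent.P240.R2.H296.ORef
import Vale.Agent.P240.R2.H38.V6
import Vale.Agent.P240.R2.H829.Cnt7

/-!
`LocTopF` at the prime `2` for the orthogonal groups `Ω_n(q)`, `n` odd, from their coordinates.
-/

set_option autoImplicit false

namespace Vale.Agent.P240.R2.H296.O

open Matrix Vale.Agent.P240.R2.AS Vale.Agent.P240.R2.H38 Vale.Agent.P240.K
open Vale.Agent.P240.R2.H387 (Fs mem_Fs)
open Vale.Agent.P240.R2.H487 (LocTopF)
open scoped Classical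

universe u v w

noncomputable section

/-- the preimage `Ω_n(q) × {1, -1}` of `Ω_n(q)` in `O_n(q)` (trivial star, `n` odd) -/
def SOm (K : Type u) [Field K] [StarRing K] (n : ℕ) : Subgroup (GU K n) :=
  (commutator (PGU K n)).comap (QuotientGroup.mk' (Subgroup.center (GU K n)))

section
variable {K : Type u} [Field K] [StarRing K] {n : ℕ}

lemma mem_SOm {g : GU K n} : g ∈ SOm K n ↔ ab K n g = 1 := ab_eq_one.symm

variable [Fintype K]

lemma twist_mem (hs : ∀ x : K, star x = x) (h2 : (2 : K) ≠ 0) {q : ℕ} (hq : Odd q)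
    (s : K ≃+* K) (hsq : ∀ x : K, s x = x ^ q) (g : GU K n) :
    ∃ h : SOm K n, h.1.1 = g.1 * star (g.1.map s) := by
  have hc : ∀ x : K, s (star x) = star (s x) := fun x => by rw [hs, hs]
  refine ⟨⟨g * (gmap s hc g)⁻¹, ?_⟩, rfl⟩
  rw [mem_SOm, map_mul, map_inv, ab_gmap hs h2 hq s hsq hc, mul_inv_cancel]

variable {G : Type v} [Group G]

/-- **`LocTopF`** for the image of `Ω_n(q)`, `n` odd. -/
theorem locTopF_O [Finite G] (𝕜 : Type w) [Field 𝕜] (hs : ∀ x : K, star x = x)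
    (h2 : (2 : K) ≠ 0) (hn : Odd n) (hS : SGood 2 (-1 : K) (-1) (SOm K n)) (h90 : H90 n 2 K)
    {L : Subgroup G} {ε : SOm K n →* G} (hε : PHom 2 (-1 : K) (-1) L ε)
    (hT1 : 0 < AS.t (Fr K n))
    (hcnt : ∀ σ : K ≃+* K, (σ : RingAut K) ^ 2 = 1 → σ ≠ RingEquiv.refl K →
      ∃ q : ℕ, Odd q ∧ Nat.card K = q ^ 2 ∧ (∀ x : K, σ x = x ^ q) ∧
        (Fs σ n).card < 2 ^ (n - 1) * n * AS.t (Fs σ n)) :
    LocTopF 𝕜 2 L := by
  have hn3 := hS.hn
  have hc := comb_eS hS hε.ker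
  have htw : ∀ (u : GU K n) {w : List (Ln K n)}, w ∈ Fr K n →
      ∃ w' ∈ Fr K n, De (eS (SOm K n) (-1) (-1) (ε.comp (cjS hS u))) w =
        De (eS (SOm K n) (-1) (-1) ε) w' := by
    intro u w hw
    exact ⟨w.map (lnU u), (mem_Fr_map u).2 hw, De_map hS ε u ((mem_Fr K).1 hw).2⟩
  have hcomp : ∀ u u' : GU K n, (ε.comp (cjS hS u)).comp (cjS hS u') = ε.comp (cjS hS (u * u')) := by
    intro u u'
    ext h
    show ε (cjS hS u (cjS hS u' h)) = ε (cjS hS (u * u') h)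
    congr 1
    apply Subtype.ext
    show u * (u' * h.1 * u'⁻¹) * u⁻¹ = (u * u') * h.1 * (u * u')⁻¹
    group
  refine H938.locTopF_of 𝕜 (𝒜 := {A | ∃ w ∈ Fr K n, A = De (eS (SOm K n) (-1) (-1) ε) w})
    (N := 2 ^ (n - 1)) ⟨_, w0 K n, w0_mem, rfl⟩ ?_ (inf_cen hS hε) ?_ ?_ ?_ ?_ ?_
  · rintro _ ⟨w, hw, rfl⟩
    exact ⟨De_le ε hε.range w, De_ApS hc (by omega) hw, hc.card w hw⟩
  · rintro _ ⟨w, hw, rfl⟩ l hl hlp hlc
    obtain ⟨u, hu⟩ := exists_tw hS ε hw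
    rw [hu] at hlc ⊢
    exact hC0 hS (hε.tw hS u) hl hlp hlc
  · rintro _ ⟨w, hw, rfl⟩ t ht x hx htp hxp htx htc hxc htL
    obtain ⟨u, hu⟩ := exists_tw hS ε hw
    rw [hu] at htc hxc
    exact hF0 hS (hε.tw hS u) ht hx htp hxp htx htc hxc htL
  · obtain ⟨w, hw, α, φ, h1⟩ := H945.top_of_comb (by omega) hc hT1 𝕜 L (fun u v _ => by
      rw [← hε.range]; exact ⟨_, rfl⟩)
    exact ⟨_, ⟨w, hw, rfl⟩, α, φ, h1⟩
  · rintro _ ⟨w, hw, rfl⟩ t ht htp htc htL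
    obtain ⟨u, hu⟩ := exists_tw hS ε hw
    rw [hu] at htc
    obtain ⟨u', σ, s1, s2, s3, s4, hact⟩ := exists_lit h90 hS (hε.tw hS u) ht htp htc htL
    rw [hcomp] at hact
    have hε' := hε.tw hS (u * u')
    obtain ⟨q, -, -, -, hcount⟩ := hcnt σ s2 s3
    have htF : 0 < AS.t (Fs σ n) := by
      by_contra h0
      have h1 : AS.t (Fs σ n) = 0 := by omega
      rw [h1, mul_zero] at hcount
      exact Nat.not_lt_zero _ hcount
    obtain ⟨w', hw', h1, α, φ, h3⟩ := t2_lit 𝕜 hS hε'.range hε'.ker hact s4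
      (F := Fs σ n) (H387.Fs_subset) (fun w hw w' hww => by
        rw [mem_Fs] at hw ⊢
        exact ⟨hc.perm _ hw.1 _ hww, fun P hP => hw.2 P (hww.mem_iff.2 hP)⟩)
      (fun w hw P hP => (mem_Fs.1 hw).2 P hP) htF
    obtain ⟨w'', hw'', h4⟩ := htw (u * u') hw'
    rw [h4] at h1 h3
    exact ⟨_, ⟨w'', hw'', rfl⟩, h1, α, φ, h3⟩
  · rintro _ ⟨w, hw, rfl⟩ t ht htp htc htL
    obtain ⟨u, hu⟩ := exists_tw hS ε hw
    rw [hu] at htc
    obtain ⟨u', σ, s1, s2, s3, s4, hact⟩ := exists_lit h90 hS (hε.tw hS u) ht htp htc htL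
    rw [hcomp] at hact
    have hε' := hε.tw hS (u * u')
    obtain ⟨q, hq, hK, hsq, hcount⟩ := hcnt σ s2 s3
    obtain ⟨w', hw', h, h0, h1, α, φ, h3, -⟩ := H829.top_orth_n hs hq hK σ hsq hn (by omega)
      (SOm K n) (fun h => ⟨frS hS σ s1 h, rfl⟩) (twist_mem hs h2 hq σ hsq)
      (ε.comp (cjS hS (u * u'))) (fun g hg => (hε'.ker g).1 hg) t htp
      (fun hm => htL (Subgroup.mem_sup_left (by rw [← hε'.range]; exact hm)))
      (fun h h' hh => hact.2 h h' (by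
        show h'.1.1 = (1 : GU K n).1 * h.1.1.map σ * star (1 : GU K n).1
        rw [hh]
        show _ = (1 : Matrix (Fin n) (Fin n) K) * h.1.1.map σ * star (1 : Matrix (Fin n) (Fin n) K)
        rw [star_one, one_mul, mul_one]))
      (eS (SOm K n) (-1) (-1) (ε.comp (cjS hS (u * u'))))
      (fun v hv => ⟨sS (SOm K n) (-1) (-1) v, mx_sS hS hv, rfl⟩)
      (comb_eS hS hε'.ker) hcount 𝕜
    obtain ⟨w'', hw'', h4⟩ := htw (u * u') hw'
    have h5 : Subgroup.closure {z | ∃ u_1 v, w' = u_1 ++ v ∧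
        z = eS (SOm K n) (-1) (-1) (ε.comp (cjS hS (u * u'))) u_1} =
        De (eS (SOm K n) (-1) (-1) ε) w'' := h4
    rw [h5] at h1 h3
    rw [hε'.range] at h3
    refine ⟨_, ⟨w'', hw'', rfl⟩, ε.comp (cjS hS (u * u')) h * t, ?_, h0, h1, α, φ, h3⟩
    rw [mul_inv_cancel_right, ← hε'.range]
    exact ⟨h, rfl⟩

end

end

end Vale.Agent.P240.R2.H296.O
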