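import Vale.Agent.P240.R2.H296.OForm

/-!
`TopFac` at the prime `2` for `PΩ` of the forms of odd dimension; reduction of all forms to the normal
forms.
-/

set_option autoImplicit false

namespace Vale.Agent.P240.R2.OF

open Matrix Vale.Agent.P240.R2.AS
open Vale.Agent.P240.R2.H487 (TopFac)

universe u v w

lemma two_ne' {F : Type u} [Field F] [Finite F] (h : Nat.card F % 2 = 1) : (2 : F) ≠ 0 := by
  haveI := Fintype.ofFinite F
  exact H221.two_ne (Nat.odd_iff.2 h)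

section

attribute [local instance] starRingOfComm

/-- **odd dimension** -/
theorem topFac_odd {F : Type} [Field F] [Finite F] {n : ℕ} (𝕜 : Type w) [Field 𝕜] (hn5 : 5 ≤ n)
    (hn : n % 2 = 1) (ho : Nat.card F % 2 = 1) (h3 : Nat.card F ≠ 3) (h5 : Nat.card F ≠ 5)
    (h9 : Nat.card F ≠ 9) (h25 : Nat.card F ≠ 25) {A : Matrix (Fin n) (Fin n) F} (hA : Aᵀ = A)
    (h0 : A.det ≠ 0) {L : Type v} [Group L] (e : L ≃* POm A) : TopFac 𝕜 2 L := by
  haveI := Fintype.ofFinite F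
  obtain ⟨m, rfl⟩ : ∃ m, n = m + 1 := ⟨n - 1, by omega⟩
  have h7 : 7 ≤ Nat.card F := by
    have h1 : 1 < Nat.card F := Finite.one_lt_card
    by_contra hc
    have : Nat.card F = 2 ∨ Nat.card F = 3 ∨ Nat.card F = 4 ∨ Nat.card F = 5 ∨ Nat.card F = 6 := by
      omega
    omega
  obtain ⟨P, c, hc, hP⟩ := similar_odd (two_ne' ho) (by
    rw [Nat.even_iff]
    omega) hA h0
  obtain ⟨f⟩ := nonempty_POm hc hP
  exact H296.O.topFac_Om 𝕜 (fun x => rfl) (Nat.odd_iff.2 ho) h7 h9 h25 (Nat.odd_iff.2 hn) hn5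
    (e.trans (f.trans pomOne))

/-- **reduction to the normal forms**: if `TopFac` holds for the standard forms and for the forms
`<1, ..., 1, δ>`, `δ` a nonsquare, in even dimension, it holds for all forms -/
theorem topFac_all {F : Type} [Field F] [Finite F] {n : ℕ} (𝕜 : Type w) [Field 𝕜] (hn5 : 5 ≤ n)
    (ho : Nat.card F % 2 = 1) (h3 : Nat.card F ≠ 3) (h5 : Nat.card F ≠ 5)
    (h9 : Nat.card F ≠ 9) (h25 : Nat.card F ≠ 25) {A : Matrix (Fin n) (Fin n) F} (hA : Aᵀ = A)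
    (h0 : A.det ≠ 0) {L : Type v} [Group L] (e : L ≃* POm A)
    (hplus : ∀ m : ℕ, n = m + 1 → m % 2 = 1 → Nonempty (L ≃* ↥(commutator (PGU F (m + 1)))) →
      TopFac 𝕜 2 L)
    (hminus : ∀ (m : ℕ) (δ : F), n = m + 1 → m % 2 = 1 → ¬ IsSquare δ →
      Nonempty (L ≃* POm (dl m δ)) → TopFac 𝕜 2 L) : TopFac 𝕜 2 L := by
  haveI := Fintype.ofFinite F
  by_cases hn : n % 2 = 1
  · exact topFac_odd 𝕜 hn5 hn ho h3 h5 h9 h25 hA h0 e
  obtain ⟨m, rfl⟩ : ∃ m, n = m + 1 := ⟨n - 1, by omega⟩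
  have h2 := two_ne' ho
  have hF : ringChar F ≠ 2 := by
    intro h
    apply h2
    have h3 := ringChar.Nat.cast_ringChar (R := F)
    rw [h] at h3
    exact_mod_cast h3
  obtain ⟨δ, hδ⟩ := FiniteField.exists_nonsquare hF
  rcases congr_all h2 hδ hA h0 with ⟨P, hP⟩ | ⟨P, hP⟩
  · obtain ⟨f⟩ := nonempty_POm (c := 1) one_ne_zero (hP.trans (one_smul F _).symm)
    exact hplus m rfl (by omega) ⟨e.trans (f.trans pomOne)⟩
  · obtain ⟨f⟩ := nonempty_POm (c := 1) one_ne_zero (hP.trans (one_smul F _).symm)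
    exact hminus m δ rfl (by omega) hδ ⟨e.trans f⟩

end

end Vale.Agent.P240.R2.OF
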