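import Vale.Agent.P240.R2.H296.OFam2
import Vale.Agent.P240.R2.H401.D2
import Vale.Agent.P240.R2.H829.DII
import Vale.Agent.P240.R2.H275.DF
import Vale.Agent.P240.R2.H281.DC
import Vale.Agent.P240.R2.H651.DSem
import Vale.Agent.P240.R2.H730.DK
import Vale.Agent.P240.R2.H387.DL
import Vale.Agent.P240.R2.H145.EO8

/-!
`TopFac` at the prime `2` for `PΩ` of all nondegenerate symmetric bilinear forms.
-/

set_option autoImplicit false

namespace Vale.Agent.P240.R2.OF

open Matrix Vale.Agent.P240.R2.AS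
open Vale.Agent.P240.R2.H487 (TopFac)
open Vale.Agent.P240.R2.H401.D (StmtD)

universe u v w

/-- nonsquare discriminant, even dimension -/
theorem stmtD : StmtD.{u, v, w} :=
  H401.D.stmtD_of (H651.DS.stmtDSem_of H145.EO.stmtEO H275.stmtDF) H275.stmtDF
    (H281DC.stmtDC_of H275.stmtDF) (H829.DII.stmtDII_of H275.stmtDF H730.stmtDK H387DL.stmtDL)

/-- **all orthogonal groups**: every nondegenerate symmetric bilinear form of dimension `n ≥ 5` over
a field with `q` elements, `q` odd, `q ∉ {3, 5, 9, 25}` -/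
theorem topFac_pom {F : Type} [Field F] [Finite F] {n : ℕ} (𝕜 : Type w) [Field 𝕜] (hn5 : 5 ≤ n)
    (ho : Nat.card F % 2 = 1) (h3 : Nat.card F ≠ 3) (h5 : Nat.card F ≠ 5) (h9 : Nat.card F ≠ 9)
    (h25 : Nat.card F ≠ 25) {A : Matrix (Fin n) (Fin n) F} (hA : Aᵀ = A) (h0 : A.det ≠ 0)
    {L : Type v} [Group L] (e : L ≃* POm A) : TopFac 𝕜 2 L :=
  topFac_of stmtD 𝕜 hn5 ho h3 h5 h9 h25 hA h0 e

end Vale.Agent.P240.R2.OF
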