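import Vale.Agent.P240.R2.H296.OFDefs
import Vale.Agent.P240.R2.H296.OFin
import Vale.Agent.P240.R2.H945.EH
import Mathlib.LinearAlgebra.BilinearForm.Orthogonal
import Mathlib.LinearAlgebra.QuadraticForm.Basic

/-!
Similar forms have isomorphic groups `PΩ`; normal forms over finite fields of odd order.
-/

set_option autoImplicit false

namespace Vale.Agent.P240.R2.OF

open Matrix

universe u v w

section general

variable {G H : Type*} [Group G] [Group H]

lemma map_center (e : G ≃* H) : (Subgroup.center G).map (e : G →* H) = Subgroup.center H := by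
  ext x
  constructor
  · rintro ⟨y, hy, rfl⟩
    rw [Subgroup.mem_center_iff]
    intro z
    have h := Subgroup.mem_center_iff.1 hy (e.symm z)
    have h1 := congrArg e h
    rw [map_mul, map_mul, e.apply_symm_apply] at h1
    exact h1
  · intro hx
    refine ⟨e.symm x, ?_, e.apply_symm_apply x⟩
    rw [SetLike.mem_coe, Subgroup.mem_center_iff]
    intro z
    apply e.injective
    rw [map_mul, map_mul, e.apply_symm_apply]
    exact Subgroup.mem_center_iff.1 hx (e z)

lemma map_comm (e : G ≃* H) : (commutator G).map (e : G →* H) = commutator H := by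
  rw [commutator_def, commutator_def, Subgroup.map_commutator]
  have h : (⊤ : Subgroup G).map (e : G →* H) = ⊤ := Subgroup.map_top_of_surjective _ e.surjective
  rw [h]

/-- isomorphic groups have isomorphic commutator subgroups of the quotients by the centres -/
noncomputable def commCongr (e : G ≃* H) :
    ↥(commutator (G ⧸ Subgroup.center G)) ≃* ↥(commutator (H ⧸ Subgroup.center H)) :=
  let f := QuotientGroup.congr (Subgroup.center G) (Subgroup.center H) e (map_center e)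
  ((commutator (G ⧸ Subgroup.center G)).equivMapOfInjective (f : _ →* _) f.injective).trans
    (MulEquiv.subgroupCongr (map_comm f))

end general

section forms

variable {F : Type*} [Field F] {n : ℕ}

lemma mem_OA {A : Matrix (Fin n) (Fin n) F} {g : GL (Fin n) F} :
    g ∈ OA A ↔ (g.1)ᵀ * A * g.1 = A := Iff.rfl

lemma val_inv_mul (P : GL (Fin n) F) : (P⁻¹).1 * P.1 = 1 := by
  rw [← Units.val_mul, inv_mul_cancel, Units.val_one]

lemma val_mul_inv (P : GL (Fin n) F) : P.1 * (P⁻¹).1 = 1 := by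
  rw [← Units.val_mul, mul_inv_cancel, Units.val_one]

/-- conjugation by a similarity -/
lemma conj_mem {A B : Matrix (Fin n) (Fin n) F} {P : GL (Fin n) F} {c : F} (hc : c ≠ 0)
    (h : (P.1)ᵀ * A * P.1 = c • B) {g : GL (Fin n) F} (hg : g ∈ OA A) : P⁻¹ * g * P ∈ OA B := by
  rw [mem_OA] at hg ⊢
  have h1 : ((P⁻¹ * g * P).1)ᵀ * (c • B) * (P⁻¹ * g * P).1 = c • B := by
    rw [← h]
    rw [Units.val_mul, Units.val_mul, Matrix.transpose_mul, Matrix.transpose_mul]
    have e1 : ((P⁻¹).1)ᵀ * (P.1)ᵀ = 1 := by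
      rw [← Matrix.transpose_mul, val_mul_inv, Matrix.transpose_one]
    calc (P.1)ᵀ * ((g.1)ᵀ * ((P⁻¹).1)ᵀ) * ((P.1)ᵀ * A * P.1) * ((P⁻¹).1 * g.1 * P.1)
        = (P.1)ᵀ * ((g.1)ᵀ * ((((P⁻¹).1)ᵀ * (P.1)ᵀ) * A * (P.1 * (P⁻¹).1)) * g.1) * P.1 := by
          simp only [Matrix.mul_assoc]
      _ = _ := by rw [e1, val_mul_inv, Matrix.one_mul, Matrix.mul_one, hg]
  rw [Matrix.mul_smul, Matrix.smul_mul] at h1
  exact smul_right_injective _ hc h1

/-- similar forms have isomorphic isometry groups -/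
lemma nonempty_OA {A B : Matrix (Fin n) (Fin n) F} {P : GL (Fin n) F} {c : F} (hc : c ≠ 0)
    (h : (P.1)ᵀ * A * P.1 = c • B) : Nonempty (↥(OA A) ≃* ↥(OA B)) := by
  have h' : ((P⁻¹).1)ᵀ * B * (P⁻¹).1 = c⁻¹ • A := by
    have e1 : B = c⁻¹ • ((P.1)ᵀ * A * P.1) := by rw [h, smul_smul, inv_mul_cancel₀ hc, one_smul]
    have e2 : ((P⁻¹).1)ᵀ * (P.1)ᵀ = 1 := by
      rw [← Matrix.transpose_mul, val_mul_inv, Matrix.transpose_one]
    rw [e1, Matrix.mul_smul, Matrix.smul_mul]
    congr 1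
    calc ((P⁻¹).1)ᵀ * ((P.1)ᵀ * A * P.1) * (P⁻¹).1 = (((P⁻¹).1)ᵀ * (P.1)ᵀ) * A * (P.1 * (P⁻¹).1) := by
          simp only [Matrix.mul_assoc]
      _ = A := by rw [e2, val_mul_inv, Matrix.one_mul, Matrix.mul_one]
  refine ⟨{
    toFun := fun g => ⟨P⁻¹ * g.1 * P, conj_mem hc h g.2⟩
    invFun := fun g => ⟨P⁻¹⁻¹ * g.1 * P⁻¹, conj_mem (inv_ne_zero hc) h' g.2⟩
    left_inv := fun g => Subtype.ext (by
      show P⁻¹⁻¹ * (P⁻¹ * g.1 * P) * P⁻¹ = g.1
      group)
    right_inv := fun g => Subtype.ext (by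
      show P⁻¹ * (P⁻¹⁻¹ * g.1 * P⁻¹) * P = g.1
      group)
    map_mul' := fun a b => Subtype.ext (by
      show P⁻¹ * (a.1 * b.1) * P = (P⁻¹ * a.1 * P) * (P⁻¹ * b.1 * P)
      group) }⟩

/-- similar forms have isomorphic groups `PΩ` -/
theorem nonempty_POm {A B : Matrix (Fin n) (Fin n) F} {P : GL (Fin n) F} {c : F} (hc : c ≠ 0)
    (h : (P.1)ᵀ * A * P.1 = c • B) : Nonempty (POm A ≃* POm B) := by
  obtain ⟨e⟩ := nonempty_OA hc h
  exact ⟨commCongr e⟩

/-- a matrix `P` with `Pᵀ A P` nonsingular is invertible -/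
lemma exists_gl {A D P : Matrix (Fin n) (Fin n) F} (h : Pᵀ * A * P = D) (hD : D.det ≠ 0) :
    ∃ Q : GL (Fin n) F, Q.1 = P := by
  have h1 : P.det ≠ 0 := by
    intro h0
    apply hD
    rw [← h, Matrix.det_mul, h0, mul_zero]
  exact ⟨Matrix.GeneralLinearGroup.mkOfDetNeZero P h1, rfl⟩

/-- diagonalization -/
theorem exists_diag (h2 : (2 : F) ≠ 0) {A : Matrix (Fin n) (Fin n) F} (hA : Aᵀ = A) :
    ∃ (P : GL (Fin n) F) (d : Fin n → F), (P.1)ᵀ * A * P.1 = diagonal d := by
  haveI : Invertible (2 : F) := invertibleOfNonzero h2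
  have hs : LinearMap.IsSymm (Matrix.toBilin' A) := by
    rw [LinearMap.isSymm_def]
    intro x y
    rw [Matrix.toBilin'_apply', Matrix.toBilin'_apply']
    show x ⬝ᵥ A *ᵥ y = y ⬝ᵥ A *ᵥ x
    rw [Matrix.dotProduct_mulVec, dotProduct_comm, ← Matrix.mulVec_transpose, hA]
  obtain ⟨v, hv⟩ := LinearMap.BilinForm.exists_orthogonal_basis hs
  have hfr : Module.finrank F (Fin n → F) = n := Module.finrank_fin_fun F
  let w : Module.Basis (Fin n) F (Fin n → F) := v.reindex (finCongr hfr)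
  have hw : ∀ i j, i ≠ j → w i ⬝ᵥ A *ᵥ w j = 0 := by
    intro i j hij
    have h1 : (finCongr hfr).symm i ≠ (finCongr hfr).symm j :=
      fun h => hij ((finCongr hfr).symm.injective h)
    have h3 := LinearMap.isOrthoᵢ_def.1 hv _ _ h1
    rw [Matrix.toBilin'_apply'] at h3
    simp only [w, Module.Basis.reindex_apply]
    exact h3
  let M : Matrix (Fin n) (Fin n) F := Matrix.of fun i j => w j i
  have hM : M = (Pi.basisFun F (Fin n)).toMatrix w := by
    ext i j
    rw [Module.Basis.toMatrix_apply, Pi.basisFun_repr]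
    rfl
  haveI := (Pi.basisFun F (Fin n)).invertibleToMatrix w
  refine ⟨(unitOfInvertible ((Pi.basisFun F (Fin n)).toMatrix w)), fun i => w i ⬝ᵥ A *ᵥ w i, ?_⟩
  rw [val_unitOfInvertible, ← hM]
  ext i j
  have e1 : (Mᵀ * A * M) i j = w i ⬝ᵥ A *ᵥ w j := by
    rw [Matrix.mul_assoc, Matrix.mul_apply']
    congr 1
  rw [e1, Matrix.diagonal_apply]
  by_cases h : i = j
  · subst h; rw [if_pos rfl]
  · rw [if_neg h, hw i j h]

end forms

section finite

variable {F : Type u} [Field F] [Fintype F] {m : ℕ}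

/-- the form `<1, ..., 1, D>` -/
def dl (m : ℕ) (D : F) : Matrix (Fin (m + 1)) (Fin (m + 1)) F :=
  diagonal fun i => if i = Fin.last m then D else 1

lemma dl_one : dl m (1 : F) = 1 := by
  rw [dl, ← diagonal_one]
  congr 1
  funext i
  split_ifs <;> rfl

lemma dl_det (D : F) : (dl m D).det = D := by
  rw [dl, det_diagonal, Fin.prod_univ_castSucc, if_pos rfl]
  have h : ∀ i : Fin m, (if (Fin.castSucc i) = Fin.last m then D else 1) = 1 := by
    intro i
    rw [if_neg (Fin.castSucc_lt_last i).ne]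
  rw [Finset.prod_congr rfl fun i _ => h i, Finset.prod_const_one, one_mul]

/-- composition of congruences -/
lemma congr_trans {A B C : Matrix (Fin (m + 1)) (Fin (m + 1)) F} {P : GL (Fin (m + 1)) F}
    {M : Matrix (Fin (m + 1)) (Fin (m + 1)) F} (h1 : (P.1)ᵀ * A * P.1 = B) (h3 : Mᵀ * B * M = C)
    (hC : C.det ≠ 0) : ∃ Q : GL (Fin (m + 1)) F, (Q.1)ᵀ * A * Q.1 = C := by
  obtain ⟨Q, rfl⟩ := exists_gl h3 hC
  refine ⟨P * Q, ?_⟩
  rw [Units.val_mul, Matrix.transpose_mul, ← h3, ← h1]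
  simp only [Matrix.mul_assoc]

/-- the normal form with the discriminant -/
theorem exists_normal (h2 : (2 : F) ≠ 0) {A : Matrix (Fin (m + 1)) (Fin (m + 1)) F} (hA : Aᵀ = A)
    (h0 : A.det ≠ 0) : ∃ D : F, D ≠ 0 ∧ ∃ P : GL (Fin (m + 1)) F, (P.1)ᵀ * A * P.1 = dl m D := by
  obtain ⟨P, d, hP⟩ := exists_diag h2 hA
  have hP0 : P.1.det ≠ 0 := by
    have h1 := congrArg Matrix.det (val_mul_inv P)
    rw [det_mul, det_one] at h1
    exact left_ne_zero_of_mul_eq_one h1
  have hd : ∏ i, d i ≠ 0 := by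
    rw [← det_diagonal, ← hP, det_mul, det_mul, det_transpose]
    exact mul_ne_zero (mul_ne_zero hP0 h0) hP0
  obtain ⟨M, hM⟩ := H945.EH.exists_disc h2 (Fin.last m) d
    (fun i => Finset.prod_ne_zero_iff.1 hd i (Finset.mem_univ _))
  have hM' : Mᵀ * diagonal d * M = dl m (∏ i, d i) := hM
  exact ⟨∏ i, d i, hd, congr_trans hP hM' (by rw [dl_det]; exact hd)⟩

/-- the normal form up to a square -/
theorem normal_sq (h2 : (2 : F) ≠ 0) {A : Matrix (Fin (m + 1)) (Fin (m + 1)) F} {D D' e : F}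
    {P : GL (Fin (m + 1)) F} (h : (P.1)ᵀ * A * P.1 = dl m D) (hD : D ≠ 0) (hD' : D' ≠ 0)
    (he : e ≠ 0) (hde : D = e * e * D') : ∃ Q : GL (Fin (m + 1)) F, (Q.1)ᵀ * A * Q.1 = dl m D' := by
  have hp : ∏ j : Fin (m + 1), (if j = Fin.last m then D else 1) = e * e * D' := by
    rw [← det_diagonal]
    exact (dl_det D).trans hde
  obtain ⟨M, hM⟩ := H945.EH.exists_disc_sq h2 (Fin.last m)
    (fun j => if j = Fin.last m then D else 1) (fun i => by
      split_ifs
      · exact hD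
      · exact one_ne_zero) he hp
  have hM' : Mᵀ * dl m D * M = dl m D' := hM
  exact congr_trans h hM' (by rw [dl_det]; exact hD')

/-- odd dimension: every form is similar to the standard form -/
theorem similar_odd (h2 : (2 : F) ≠ 0) (hm : Even m) {A : Matrix (Fin (m + 1)) (Fin (m + 1)) F}
    (hA : Aᵀ = A) (h0 : A.det ≠ 0) : ∃ (P : GL (Fin (m + 1)) F) (c : F), c ≠ 0 ∧
      (P.1)ᵀ * A * P.1 = c • (1 : Matrix (Fin (m + 1)) (Fin (m + 1)) F) := by
  obtain ⟨D, hD, P, hP⟩ := exists_normal h2 hA h0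
  -- the form `D A` has square discriminant
  obtain ⟨k, hk⟩ := hm
  have h1 : (P.1)ᵀ * (D • A) * P.1 = diagonal (fun i => D * if i = Fin.last m then D else 1) := by
    rw [Matrix.mul_smul, Matrix.smul_mul, hP, dl, ← diagonal_smul]
    rfl
  have hp : ∏ i : Fin (m + 1), (D * if i = Fin.last m then D else 1) = D ^ (k + 1) * D ^ (k + 1) * 1 := by
    have e1 : ∏ i : Fin (m + 1), (if i = Fin.last m then D else 1) = D := by
      rw [← det_diagonal]
      exact dl_det D
    rw [Finset.prod_mul_distrib, Finset.prod_const, Finset.card_univ, Fintype.card_fin, e1, hk]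
    ring
  obtain ⟨M, hM⟩ := H945.EH.exists_disc_sq h2 (Fin.last m)
    (fun i : Fin (m + 1) => D * if i = Fin.last m then D else 1) (fun i => by
      split_ifs
      · exact mul_ne_zero hD hD
      · exact mul_ne_zero hD one_ne_zero) (pow_ne_zero _ hD) hp
  have hM' : Mᵀ * diagonal (fun i : Fin (m + 1) => D * if i = Fin.last m then D else 1) * M = 1 :=
    hM.trans dl_one
  obtain ⟨Q, hQ⟩ := congr_trans h1 hM' (by rw [det_one]; exact one_ne_zero)
  refine ⟨Q, D⁻¹, inv_ne_zero hD, ?_⟩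
  rw [Matrix.mul_smul, Matrix.smul_mul] at hQ
  rw [← hQ, smul_smul, inv_mul_cancel₀ hD, one_smul]

/-- every form is congruent to `<1, ..., 1>` or to `<1, ..., 1, δ>` for a given nonsquare `δ` -/
theorem congr_all (h2 : (2 : F) ≠ 0) {δ : F} (hδ : ¬ IsSquare δ)
    {A : Matrix (Fin (m + 1)) (Fin (m + 1)) F} (hA : Aᵀ = A) (h0 : A.det ≠ 0) :
    (∃ P : GL (Fin (m + 1)) F, (P.1)ᵀ * A * P.1 = 1) ∨
      ∃ P : GL (Fin (m + 1)) F, (P.1)ᵀ * A * P.1 = dl m δ := by
  obtain ⟨D, hD, P, hP⟩ := exists_normal h2 hA h0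
  have hδ0 : δ ≠ 0 := by
    rintro rfl
    exact hδ ⟨0, by ring⟩
  by_cases hs : IsSquare D
  · left
    obtain ⟨e, he⟩ := hs
    have he0 : e ≠ 0 := by
      rintro rfl
      exact hD (by rw [he, mul_zero])
    obtain ⟨Q, hQ⟩ := normal_sq h2 hP hD one_ne_zero he0 (by rw [he, mul_one])
    exact ⟨Q, by rw [hQ, dl_one]⟩
  · right
    have hF : ringChar F ≠ 2 := by
      intro h
      apply h2
      have h3 := ringChar.Nat.cast_ringChar (R := F)
      rw [h] at h3
      exact_mod_cast h3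
    have hm1 : ∀ a : F, a ≠ 0 → ¬ IsSquare a → a ^ (Fintype.card F / 2) = -1 := by
      intro a ha hna
      exact (FiniteField.pow_dichotomy hF ha).resolve_left fun h =>
        hna ((FiniteField.isSquare_iff hF ha).2 h)
    have h3 : IsSquare (D * δ) := by
      rw [FiniteField.isSquare_iff hF (mul_ne_zero hD hδ0), mul_pow, hm1 D hD hs, hm1 δ hδ0 hδ]
      ring
    obtain ⟨e, he⟩ := h3
    have he0 : e ≠ 0 := by
      rintro rfl
      exact mul_ne_zero hD hδ0 (by rw [he, mul_zero])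
    exact normal_sq h2 hP hD hδ0 (div_ne_zero he0 hδ0) (by
      have e1 : e / δ * (e / δ) * δ = (e * e) / δ := by
        field_simp
      rw [e1, ← he, mul_div_cancel_right₀ _ hδ0])

end finite

section star

attribute [local instance] starRingOfComm

variable {F : Type u} [Field F] {n : ℕ}

/-- the isometry group of the standard form is the unitary group for the trivial star -/
def oneEquiv : ↥(OA (1 : Matrix (Fin n) (Fin n) F)) ≃* AS.GU F n where
  toFun g := ⟨g.1.1, by
    rw [Matrix.mem_unitaryGroup_iff', star_eq_conjTranspose]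
    have h := g.2
    rw [mem_OA, Matrix.mul_one] at h
    exact h⟩
  invFun u := ⟨⟨u.1, star u.1, Matrix.mem_unitaryGroup_iff.1 u.2, Matrix.mem_unitaryGroup_iff'.1 u.2⟩, by
    rw [mem_OA, Matrix.mul_one]
    exact Matrix.mem_unitaryGroup_iff'.1 u.2⟩
  left_inv g := Subtype.ext (Units.ext rfl)
  right_inv u := Subtype.ext rfl
  map_mul' a b := Subtype.ext rfl

/-- `PΩ` of the standard form -/
noncomputable def pomOne : POm (1 : Matrix (Fin n) (Fin n) F) ≃* ↥(commutator (AS.PGU F n)) :=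
  commCongr oneEquiv

end star

end Vale.Agent.P240.R2.OF
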