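import Mathlib.LinearAlgebra.QuadraticForm.Basic
import Mathlib.LinearAlgebra.Matrix.SesquilinearForm
import Vale.Agent.P240.R2.H296.OForm
import Vale.Agent.P240.R2.H432.QDefs

/-!
Quadratic forms and symmetric bilinear forms, characteristic not `2`: the groups `PΩ`.
-/

set_option autoImplicit false

namespace Vale.Agent.P240.R2.OF

open Matrix
open Vale.Agent.P240.R2.H432.Q (OQ POQ)

universe u

section
variable {F : Type u} [Field F] {n : ℕ}

/-- the Gram matrix of the polar form -/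
noncomputable def gram (Q : QuadraticForm F (Fin n → F)) : Matrix (Fin n) (Fin n) F :=
  LinearMap.toMatrix₂' F Q.polarBilin

lemma gram_polar (Q : QuadraticForm F (Fin n → F)) (v w : Fin n → F) :
    QuadraticMap.polar Q v w = v ⬝ᵥ (gram Q *ᵥ w) := by
  have h1 : Matrix.toLinearMap₂' F (gram Q) = Q.polarBilin := by
    unfold gram
    rw [Matrix.toLinearMap₂'_toMatrix']
  rw [← Matrix.toLinearMap₂'_apply', h1]
  rfl

lemma gram_ext {A B : Matrix (Fin n) (Fin n) F}
    (h : ∀ v w : Fin n → F, v ⬝ᵥ (A *ᵥ w) = v ⬝ᵥ (B *ᵥ w)) : A = B := by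
  ext i j
  have h1 := h (Pi.single i 1) (Pi.single j 1)
  rw [mulVec_single_one, mulVec_single_one, single_one_dotProduct, single_one_dotProduct] at h1
  exact h1

lemma gram_symm (Q : QuadraticForm F (Fin n → F)) : (gram Q)ᵀ = gram Q := by
  refine gram_ext fun v w => ?_
  rw [mulVec_transpose, dotProduct_comm, ← dotProduct_mulVec, ← gram_polar, ← gram_polar,
    QuadraticMap.polar_comm]

lemma gram_det {Q : QuadraticForm F (Fin n → F)}
    (hQ : ∀ v, (∀ w, QuadraticMap.polar Q v w = 0) → v = 0) : (gram Q).det ≠ 0 := by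
  intro h0
  obtain ⟨v, hv, h1⟩ := Matrix.exists_mulVec_eq_zero_iff.2 h0
  refine hv (hQ v fun w => ?_)
  rw [QuadraticMap.polar_comm, gram_polar, h1, dotProduct_zero]

lemma OQ_eq (h2 : (2 : F) ≠ 0) (Q : QuadraticForm F (Fin n → F)) : OQ Q = OA (gram Q) := by
  ext g
  have hg : ∀ v w, QuadraticMap.polar Q (g.1 *ᵥ v) (g.1 *ᵥ w) =
      v ⬝ᵥ (((g.1)ᵀ * gram Q * g.1) *ᵥ w) := by
    intro v w
    rw [gram_polar, ← mulVec_mulVec, ← mulVec_mulVec, dotProduct_mulVec v (g.1)ᵀ, vecMul_transpose]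
  constructor
  · intro h
    rw [mem_OA]
    refine gram_ext fun v w => ?_
    rw [← hg, ← gram_polar]
    have h' : ∀ v, Q (g.1 *ᵥ v) = Q v := h
    unfold QuadraticMap.polar
    rw [← mulVec_add, h', h', h']
  · intro h
    rw [mem_OA] at h
    intro v
    have h1 := hg v v
    rw [h, ← gram_polar, QuadraticMap.polar_self, QuadraticMap.polar_self, ← Nat.cast_smul_eq_nsmul F,
      ← Nat.cast_smul_eq_nsmul F, smul_eq_mul, smul_eq_mul] at h1
    exact mul_left_cancel₀ (by exact_mod_cast h2) h1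

/-- characteristic not `2`: the group `PΩ` of a quadratic form is that of a symmetric bilinear form -/
theorem poq_pom (h2 : (2 : F) ≠ 0) {Q : QuadraticForm F (Fin n → F)}
    (hQ : ∀ v, (∀ w, QuadraticMap.polar Q v w = 0) → v = 0) :
    ∃ A : Matrix (Fin n) (Fin n) F, Aᵀ = A ∧ A.det ≠ 0 ∧ Nonempty (POQ Q ≃* POm A) :=
  ⟨gram Q, gram_symm Q, gram_det hQ, ⟨commCongr (MulEquiv.subgroupCongr (OQ_eq h2 Q))⟩⟩

end

end Vale.Agent.P240.R2.OF
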