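import Vale.Agent.P240.R2.H296.OQOdd
import Vale.Agent.P240.R2.H997.OmFew

/-!
The orthogonal groups of quadratic forms in odd dimension, as composition factors, for an odd prime
`p`: all finite fields.
-/

set_option autoImplicit false
set_option linter.all false

namespace Vale.Agent.P240.R2.OF

open Matrix Subgroup Vale.Agent.P240.K Vale.Agent.P240.H195 Vale.Agent.P240.R2.AS
open Vale.Agent.P240.R2.H487 Vale.Agent.P240.R2.H63.Odd
open Vale.Agent.P240.R2.H432.Q (OQ POQ)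

universe u v

section

attribute [local instance] starRingOfComm

/-- odd dimension: the group of the antidiagonal form -/
theorem pom_gj {L : Type u} [Group L] {F : Type} [Field F] [Finite F] {m : ℕ}
    {A : Matrix (Fin (m + 1)) (Fin (m + 1)) F} (hm : m % 2 = 0) (h2 : (2 : F) ≠ 0) (hA : Aᵀ = A)
    (hA0 : A.det ≠ 0) (e : L ≃* POm A) :
    Nonempty (L ≃* ↥(commutator ↥(CG.GJ (m + 1) (RingEquiv.refl F)))) := by
  have : Fintype F := Fintype.ofFinite F
  obtain ⟨P, c, hc, hP⟩ := similar_odd h2 (Nat.even_iff.2 hm) hA hA0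
  obtain ⟨f⟩ := nonempty_POm hc hP
  obtain ⟨g⟩ := H613.I5.pgu_equiv (K := F) (n := m + 1) (fun x => rfl) h2
    (Nat.odd_iff.2 (by omega))
  have g' : ↥(commutator (AS.PGU F (m + 1))) ≃* ↥(commutator ↥(CG.GJ (m + 1) (RingEquiv.refl F))) :=
    ((commutator (AS.PGU F (m + 1))).equivMapOfInjective (g : AS.PGU F (m + 1) →*
      ↥(CG.GJ (m + 1) (RingEquiv.refl F))) g.injective).trans (MulEquiv.subgroupCongr (map_comm g))
  exact ⟨(e.trans (f.trans pomOne)).trans g'⟩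

end

/-- odd dimension, all finite fields -/
theorem cov_POQ_nodd {L : Type u} [Group L] {F : Type} [Field F] [Finite F] {p : ℕ}
    [hp : Fact p.Prime] (hp2 : p ≠ 2) (hs : IsSimpleGroup L) (hnab : ∃ x y : L, x * y ≠ y * x)
    {n : ℕ} (hn5 : 5 ≤ n) (hn : n % 2 = 1) {Q : QuadraticForm F (Fin n → F)}
    (hQ : ∀ v, (∀ w, QuadraticMap.polar Q v w = 0) → v = 0) (e : L ≃* POQ Q)
    (𝕜 : Type v) [Field 𝕜] : Cov 𝕜 p L := by
  by_cases hq : Nat.card F ∈ ({3, 5} : Set ℕ)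
  swap
  · exact cov_POQOdd hp2 hs hnab ⟨n, Q, hn5, hQ, Or.inr (Or.inr ⟨hn, hq⟩), ⟨e⟩⟩ 𝕜
  by_cases h1 : (p : F) = 0 ∨ (2 : F) = 0
  · exact cov_POQ hp2 hs hnab hn5 hQ h1 e 𝕜
  obtain ⟨hpF, h2⟩ := not_or.1 h1
  obtain ⟨A, hA, hA0, ⟨f⟩⟩ := H432.Q.poq_pom h2 Q hQ
  obtain ⟨r, hr, hrF⟩ := exists_char' F
  have hpr : p ≠ r := by
    rintro rfl
    exact hpF hrF
  have hfin : Finite L := Finite.of_equiv _ e.symm.toEquiv
  have : CharP F r := CG.charP_of hr hrF
  have ha : AutFree p r L := H715.Or.autFree_O h2 hn5 hA hA0 (O := OA A) (fun _ => Iff.rfl)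
    (e.trans f).symm hr hp.out hpr hs (centreless_of_simple hs hnab)
  obtain ⟨m, rfl⟩ : ∃ m, n = m + 1 := ⟨n - 1, by omega⟩
  obtain ⟨k⟩ := pom_gj (by omega) h2 hA hA0 (e.trans f)
  have hf : FewAut p L := FewAut.congr k.symm (H997.fewAut_omega_small (F := F) (by omega) (by omega)
    k.symm.isSimpleGroup hp.out hp2 hpF (by
      simp only [Set.mem_insert_iff, Set.mem_singleton_iff] at hq
      exact hq))
  exact Cov.good (Or.inr (Or.inr (Or.inr (Or.inl ⟨r, hr, ha, Or.inr (Or.inr (Or.inl hf))⟩))))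

end Vale.Agent.P240.R2.OF
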