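import Vale.Agent.P240.R2.H296.StmtsB
import Vale.Agent.P240.Bdl.B1

/-!
Exact statements for the orthogonal groups `Ω_n(q)`, `n` odd, at the prime `2` (helper296).
`PGU K n`, with the trivial star, is `O_n(q) / {1, -1}`, isomorphic to `SO_n(q)`; its commutator
subgroup is `Ω_n(q)`; `SA K` is the group of all automorphisms of the field.
-/

set_option autoImplicit false

namespace Vale.Agent.P240.R2.AS

open Finset Matrix Subgroup Vale.Agent.P240 Vale.Agent.P240.K
open scoped Classical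

universe u v w

noncomputable section

/-- LN: the dimension `t F` is at most `#F / n` (the brackets with a fixed last letter suffice) -/
def StmtLN : Prop :=
  ∀ (L : Type u) [Fintype L] (F : Finset (List L)) (n : ℕ), (∀ w ∈ F, w.length = n) →
    (∀ w ∈ F, w.Nodup) → (∀ w ∈ F, ∀ w', w.Perm w' → w' ∈ F) → n * t F ≤ F.card

/-- `Ω_n(q)`, as a subgroup of `PΓO_n(q)` -/
def Om (K : Type u) [Field K] [StarRing K] (n : ℕ) : Subgroup (PGamU K n) :=
  (commutator (PGU K n)).map SemidirectProduct.inl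

/-- the elementary abelian `2`-group of a frame -/
def Dw {K : Type u} [Field K] [StarRing K] {n : ℕ} (w : List (Ln K n)) : Subgroup (PGamU K n) :=
  closure {y | ∃ u v, w = u ++ v ∧ y = SemidirectProduct.inl (eW (-1) u)}

/-- the frames whose lines are fixed by the field automorphism `s` -/
def Fx {K : Type u} [Field K] [Fintype K] [StarRing K] (s : SA K) (n : ℕ) :
    Finset (List (Ln K n)) :=
  (Fr K n).filter (fun w => ∀ P ∈ w, P.1.map s.1 = P.1)

/-- O1: a top cycle of `Ω_n(q)` -/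
def StmtO1 : Prop :=
  ∀ (K : Type u) [Field K] [Fintype K] [StarRing K], (∀ x : K, star x = x) → Odd (Nat.card K) →
    7 ≤ Nat.card K → ∀ n : ℕ, Odd n → 3 ≤ n → ∀ (𝕜 : Type v) [Field 𝕜],
    ∃ w ∈ Fr K n, ∃ (α : Ch 𝕜 (Subgroup (PGamU K n))) (φ : List (Subgroup (PGamU K n))),
      TopCycle 𝕜 2 (Om K n) (Dw w) α φ

/-- O2: a top cycle of the centralizer of the field automorphism of order `2` -/
def StmtO2 : Prop :=
  ∀ (K : Type u) [Field K] [Fintype K] [StarRing K] (q : ℕ), (∀ x : K, star x = x) → Odd q →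
    5 ≤ q → Nat.card K = q ^ 2 → ∀ n : ℕ, Odd n → 3 ≤ n → ∀ s : SA K, s ≠ 1 → s ^ 2 = 1 →
    ∀ (𝕜 : Type v) [Field 𝕜],
    ∃ w ∈ Fx s n, ∃ (α : Ch 𝕜 (Subgroup (PGamU K n))) (φ : List (Subgroup (PGamU K n))),
      TopCycle 𝕜 2 (Om K n ⊓ centralizer (zpowers (SemidirectProduct.inr s : PGamU K n) :
        Set (PGamU K n))) (Dw w) α φ

/-- O3: a top cycle of `Ω_n(q) ⟨s⟩`, `s` the field automorphism of order `2` -/
def StmtO3 : Prop :=
  ∀ (K : Type u) [Field K] [Fintype K] [StarRing K] (q : ℕ), (∀ x : K, star x = x) → Odd q →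
    Nat.card K = q ^ 2 → ∀ n : ℕ, Odd n → 3 ≤ n → 2 * (q - 1) ≤ n * (q - 5) →
    ∀ s : SA K, s ≠ 1 → s ^ 2 = 1 → ∀ (𝕜 : Type v) [Field 𝕜],
    ∃ y : PGamU K n, y ^ 2 = 1 ∧ y.right = s ∧ y * (SemidirectProduct.inr s)⁻¹ ∈ Om K n ∧
      ∃ w ∈ Fr K n, (∀ x ∈ Dw w, y * x = x * y) ∧
      ∃ (α : Ch 𝕜 (Subgroup (PGamU K n))) (φ : List (Subgroup (PGamU K n))),
      TopCycle 𝕜 2 (Om K n ⊔ zpowers (SemidirectProduct.inr s : PGamU K n)) (zpowers y ⊔ Dw w) α φ

/-- O4: the centralizer of `Dw w` -/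
def StmtO4 : Prop :=
  ∀ (K : Type u) [Field K] [Fintype K] [StarRing K], (∀ x : K, star x = x) → Odd (Nat.card K) →
    ∀ n : ℕ, Odd n → ∀ w ∈ Fr K n, ∃ h : PGU K n,
    (∀ s : SA K, ∀ y ∈ Dw w, SemidirectProduct.inl h * SemidirectProduct.inr s *
      (SemidirectProduct.inl h)⁻¹ * y =
      y * (SemidirectProduct.inl h * SemidirectProduct.inr s * (SemidirectProduct.inl h)⁻¹)) ∧
    ∀ x : PGamU K n, (∀ y ∈ Dw w, x * y = y * x) → ∃ d ∈ Dw w,
      x = d * (SemidirectProduct.inl h * SemidirectProduct.inr x.right *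
        (SemidirectProduct.inl h)⁻¹)

/-- O6a: transitivity on pairs of letters with the same angle, inside `Ω_n(q)` -/
def StmtO6a : Prop :=
  ∀ (K : Type u) [Field K] [Fintype K] [StarRing K], (∀ x : K, star x = x) → Odd (Nat.card K) →
    ∀ n : ℕ, Odd n → 5 ≤ n → ∀ P Q P' Q' : Ln K n, (P.1 * Q.1).trace = (P'.1 * Q'.1).trace →
    (P.1 * Q.1).trace ≠ 1 →
    ∃ g : GU K n, (QuotientGroup.mk g : PGU K n) ∈ commutator (PGU K n) ∧
      (g : Matrix (Fin n) (Fin n) K) * P.1 * star (g : Matrix (Fin n) (Fin n) K) = P'.1 ∧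
      (g : Matrix (Fin n) (Fin n) K) * Q.1 * star (g : Matrix (Fin n) (Fin n) K) = Q'.1

/-- O6b: a map of the letters that fixes the standard frame and preserves angles up to a function `κ`
is semilinear -/
def StmtO6b : Prop :=
  ∀ (K : Type u) [Field K] [Fintype K] [StarRing K], (∀ x : K, star x = x) → Odd (Nat.card K) →
    7 ≤ Nat.card K → ∀ n : ℕ, 5 ≤ n → ∀ (f : Ln K n → Ln K n) (κ : K → K),
    (∀ P Q : Ln K n, ((f P).1 * (f Q).1).trace = κ (P.1 * Q.1).trace) →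
    (∀ (i : Fin n) (P : Ln K n), P.1 = Matrix.single i i 1 → f P = P) →
    ∃ (σ : K ≃+* K) (d : Fin n → K), (∀ i, d i * d i = 1) ∧
      ∀ P : Ln K n, (f P).1 = Matrix.diagonal d * P.1.map σ * Matrix.diagonal d

/-- O6c: the automorphisms of `Ω_n(q)` that centralize the group of the standard frame are
semilinear -/
def StmtO6c : Prop :=
  ∀ (K : Type u) [Field K] [Fintype K] [StarRing K], (∀ x : K, star x = x) → Odd (Nat.card K) →
    7 ≤ Nat.card K → ∀ n : ℕ, Odd n → 5 ≤ n → ∀ β : MulAut (Om K n),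
    (∀ (P : Ln K n) (i : Fin n) (x : Om K n), P.1 = Matrix.single i i 1 →
      (x : PGamU K n) = SemidirectProduct.inl (eW (-1) [P]) → β x = x) →
    ∃ y : PGamU K n, ∀ x : Om K n, ((β x : Om K n) : PGamU K n) = y * x * y⁻¹

/-- O8: the centralizer of `Ω_n(q)` is trivial -/
def StmtO8 : Prop :=
  ∀ (K : Type u) [Field K] [Fintype K] [StarRing K], (∀ x : K, star x = x) → Odd (Nat.card K) →
    7 ≤ Nat.card K → ∀ n : ℕ, Odd n → 3 ≤ n → ∀ y : PGamU K n,
    (∀ x ∈ Om K n, y * x = x * y) → y = 1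

end

end Vale.Agent.P240.R2.AS
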