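import Vale.Agent.P240.R2.H296.StmtsO
import Vale.Agent.P240.R2.H487.EDefs

/-!
The result for the orthogonal groups `Ω_n(q)`, `n` odd, at the prime `2` (helper296).
-/

set_option autoImplicit false

namespace Vale.Agent.P240.R2.AS

open Vale.Agent.P240.R2.H487 (AutTop)
open scoped Classical

universe u v

/-- THE RESULT: top cycles for `Ω_n(q)` in its automorphism group -/
def StmtOTop : Prop :=
  ∀ (K : Type u) [Field K] [Fintype K] [StarRing K], (∀ x : K, star x = x) → Odd (Nat.card K) →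
    7 ≤ Nat.card K → ∀ n : ℕ, Odd n → 5 ≤ n →
    (∀ q : ℕ, Nat.card K = q ^ 2 → 2 * (q - 1) ≤ n * (q - 5)) →
    ∀ (𝕜 : Type v) [Field 𝕜], AutTop 𝕜 (Om K n)

end Vale.Agent.P240.R2.AS
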